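import Mathlib

open scoped BigOperators

namespace Vale.Agent.Lib.P126U

/-- Sum over bit vectors of length `n+1`, split on the first bit. -/
lemma sum_cons {n : ℕ} (g : (Fin (n + 1) → Bool) → ℝ) :
    ∑ c, g c = ∑ c', g (Fin.cons true c') + ∑ c', g (Fin.cons false c') := by
  have h := (Equiv.sum_comp (Fin.consEquiv (fun _ : Fin (n + 1) => Bool)) g).symm
  rw [h, Fintype.sum_prod_type]
  simp [Fin.consEquiv]

lemma neg_mul_log_le (x : ℝ) (hx : 0 ≤ x) : x * (-Real.log x) ≤ 1 - x := by
  rcases hx.eq_or_lt with rfl | hx
  · simp
  · have := Real.one_sub_inv_le_log_of_pos hx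
    have h2 : x * (1 - x⁻¹) ≤ x * Real.log x := mul_le_mul_of_nonneg_left this hx.le
    have h3 : x * (1 - x⁻¹) = x - 1 := by field_simp
    linarith

/-- (D) Chain-rule decomposition of a probability distribution on bit vectors. -/
theorem chain_decomp (n : ℕ) (R : (Fin n → Bool) → ℝ) (hR0 : ∀ c, 0 ≤ R c) (hR1 : ∑ c, R c = 1) :
    ∃ r : Fin n → (Fin n → Bool) → ℝ,
      (∀ c, 0 < R c → ∀ k, 0 < r k c ∧ r k c ≤ 1) ∧
      (∀ c, 0 < R c → ∏ k, r k c = R c) ∧
      (∑ c, R c * ∑ k, (if c k = true then 0 else -Real.log (r k c)) ≤
        ∑ c, R c * ((Finset.univ.filter (fun k => c k = true)).card : ℝ)) ∧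
      (∀ s : Fin n → Bool,
        ∑ c, (if 0 < R c then ∏ k, (if s k = true then (1 / 2 : ℝ) else r k c) else 0) ≤ 1) := by
  induction n with
  | zero =>
    have hu : ∀ c : Fin 0 → Bool, R c = 1 := by
      intro c
      have : ∑ c, R c = R c := by
        rw [Fintype.sum_eq_single c]
        intro c' hc'
        exact absurd (Subsingleton.elim _ _) hc'
      rw [← this, hR1]
    refine ⟨fun k _ => k.elim0, fun _ _ k => k.elim0, ?_, ?_, ?_⟩
    · intro c _
      simp [hu c]
    · simp
    · intro s
      simp [hu]
  | succ n ih =>
    -- masses of the first bit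
    set m : Bool → ℝ := fun b => ∑ c', R (Fin.cons b c') with hm
    have hm0 : ∀ b, 0 ≤ m b := fun b => Finset.sum_nonneg (fun c _ => hR0 _)
    have hmsum : m true + m false = 1 := by
      rw [← hR1, sum_cons]
    have hm1 : ∀ b, m b ≤ 1 := by
      intro b
      cases b
      · linarith [hm0 true]
      · linarith [hm0 false]
    have hle : ∀ b c', R (Fin.cons b c') ≤ m b := by
      intro b c'
      exact Finset.single_le_sum (f := fun c' => R (Fin.cons b c')) (fun c _ => hR0 _)
        (Finset.mem_univ c')
    -- conditional laws
    set R' : Bool → (Fin n → Bool) → ℝ := fun b c' =>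
      if 0 < m b then R (Fin.cons b c') / m b else (if c' = default then 1 else 0) with hR'
    have hR'0 : ∀ b c', 0 ≤ R' b c' := by
      intro b c'
      simp only [hR']
      split_ifs with h1 h2
      · exact div_nonneg (hR0 _) h1.le
      · exact zero_le_one
      · exact le_rfl
    have hR'1 : ∀ b, ∑ c', R' b c' = 1 := by
      intro b
      simp only [hR']
      split_ifs with h1
      · rw [← Finset.sum_div]
        exact div_self h1.ne'
      · rw [Finset.sum_ite_eq']
        simp
    have hmpos_of : ∀ b c', 0 < R (Fin.cons b c') → 0 < m b :=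
      fun b c' h => lt_of_lt_of_le h (hle b c')
    have hR'pos : ∀ b c', 0 < m b → R' b c' = R (Fin.cons b c') / m b := by
      intro b c' h
      simp [hR', h]
    have hRzero : ∀ b c', ¬ 0 < m b → R (Fin.cons b c') = 0 := by
      intro b c' h
      have h1 := hle b c'
      have h2 := hR0 (Fin.cons b c')
      have h3 : m b ≤ 0 := not_lt.mp h
      linarith
    have hex := fun b => ih (R' b) (hR'0 b) (hR'1 b)
    choose rb hb1 hb2 hb3 hb4 using hex
    -- the decomposition
    refine ⟨fun k c => Fin.cases (m (c 0)) (fun k' => rb (c 0) k' (Fin.tail c)) k, ?_, ?_, ?_, ?_⟩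
    · -- positivity
      intro c hc k
      obtain ⟨b, c', rfl⟩ : ∃ b c', c = Fin.cons b c' := ⟨c 0, Fin.tail c, (Fin.cons_self_tail c).symm⟩
      have hmb := hmpos_of b c' hc
      refine Fin.cases ?_ (fun k' => ?_) k
      · simpa using ⟨hmb, hm1 b⟩
      · simp only [Fin.cons_zero, Fin.cases_succ, Fin.tail_cons]
        apply hb1 b c' _ k'
        rw [hR'pos b c' hmb]
        exact div_pos hc hmb
    · -- product
      intro c hc
      obtain ⟨b, c', rfl⟩ : ∃ b c', c = Fin.cons b c' := ⟨c 0, Fin.tail c, (Fin.cons_self_tail c).symm⟩
      have hmb := hmpos_of b c' hc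
      rw [Fin.prod_univ_succ]
      simp only [Fin.cons_zero, Fin.cases_zero, Fin.cases_succ, Fin.tail_cons]
      rw [hb2 b c' (by rw [hR'pos b c' hmb]; exact div_pos hc hmb), hR'pos b c' hmb]
      field_simp
    · -- absent-bit cost
      -- per-bit inequality
      have hA : ∀ b, ∑ c', R (Fin.cons b c') *
            ∑ k, (if c' k = true then 0 else -Real.log (rb b k c')) ≤
          ∑ c', R (Fin.cons b c') * ((Finset.univ.filter (fun k => c' k = true)).card : ℝ) := by
        intro b
        by_cases hmb : 0 < m b
        · have := hb3 b
          have h2 := mul_le_mul_of_nonneg_left this hmb.le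
          rw [Finset.mul_sum, Finset.mul_sum] at h2
          refine le_trans (le_of_eq ?_) (le_trans h2 (le_of_eq ?_))
          · apply Finset.sum_congr rfl; intro c' _
            rw [hR'pos b c' hmb]; field_simp
          · apply Finset.sum_congr rfl; intro c' _
            rw [hR'pos b c' hmb]; field_simp
        · simp [hRzero b _ hmb]
      have hcard : ∀ (b : Bool) (c' : Fin n → Bool),
          ((Finset.univ.filter (fun k => (Fin.cons b c' : Fin (n + 1) → Bool) k = true)).card : ℝ) =
            (if b = true then 1 else 0) + ((Finset.univ.filter (fun k => c' k = true)).card : ℝ) := by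
        intro b c'
        simp only [Finset.card_filter]
        push_cast
        rw [Fin.sum_univ_succ]
        simp
      have hL : ∀ (b : Bool) (c' : Fin n → Bool),
          ∑ k : Fin (n + 1), (if (Fin.cons b c' : Fin (n + 1) → Bool) k = true then 0 else
              -Real.log (Fin.cases (m ((Fin.cons b c' : Fin (n + 1) → Bool) 0))
                (fun k' => rb ((Fin.cons b c' : Fin (n + 1) → Bool) 0) k'
                  (Fin.tail (Fin.cons b c' : Fin (n + 1) → Bool))) k)) =
            (if b = true then 0 else -Real.log (m b)) +
              ∑ k, (if c' k = true then 0 else -Real.log (rb b k c')) := by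
        intro b c'
        rw [Fin.sum_univ_succ]
        simp
      rw [sum_cons, sum_cons]
      simp only [hL, hcard]
      simp only [mul_add, Finset.sum_add_distrib, ← Finset.sum_mul]
      have em : ∀ b, ∑ c' : Fin n → Bool, R (Fin.cons b c') = m b := fun b => rfl
      simp only [em]
      have h3 := neg_mul_log_le (m false) (hm0 false)
      have h4 := hA true
      have h5 := hA false
      simp only [if_true, Bool.false_eq_true, if_false, mul_zero, zero_add, mul_one]
      linarith
    · -- Kraft inequality
      intro s
      have hstep : ∀ b, ∑ c', (if 0 < R (Fin.cons b c') then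
            ∏ k, (if s k = true then (1 / 2 : ℝ) else
              Fin.cases (m ((Fin.cons b c' : Fin (n + 1) → Bool) 0))
                (fun k' => rb ((Fin.cons b c' : Fin (n + 1) → Bool) 0) k'
                  (Fin.tail (Fin.cons b c' : Fin (n + 1) → Bool))) k) else 0) ≤
          (if s 0 = true then (1 / 2 : ℝ) else m b) := by
        intro b
        have hq0 : (0 : ℝ) ≤ (if s 0 = true then (1 / 2 : ℝ) else m b) := by
          split_ifs
          · norm_num
          · exact hm0 b
        by_cases hmb : 0 < m b
        · have hk := hb4 b (Fin.tail s)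
          have h2 := mul_le_mul_of_nonneg_left hk hq0
          rw [mul_one, Finset.mul_sum] at h2
          refine le_trans (le_of_eq ?_) h2
          apply Finset.sum_congr rfl
          intro c' _
          have hiff : (0 < R (Fin.cons b c')) ↔ 0 < R' b c' := by
            rw [hR'pos b c' hmb]
            constructor
            · intro h; exact div_pos h hmb
            · intro h
              by_contra hcon
              have : R (Fin.cons b c') / m b ≤ 0 :=
                div_nonpos_of_nonpos_of_nonneg (not_lt.mp hcon) hmb.le
              linarith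
          by_cases hpos : 0 < R (Fin.cons b c')
          · rw [if_pos hpos, if_pos (hiff.mp hpos), Fin.prod_univ_succ]
            simp [Fin.tail]
          · rw [if_neg hpos, if_neg (fun h => hpos (hiff.mpr h))]
            simp
        · have : ∀ c', ¬ 0 < R (Fin.cons b c') := by
            intro c'; rw [hRzero b c' hmb]; exact lt_irrefl 0
          simp only [this, if_false, Finset.sum_const_zero]
          exact hq0
      rw [sum_cons]
      have h1 := hstep true
      have h2 := hstep false
      have hq : (if s 0 = true then (1 / 2 : ℝ) else m true) +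
          (if s 0 = true then (1 / 2 : ℝ) else m false) = 1 := by
        split_ifs
        · norm_num
        · exact hmsum
      linarith

end Vale.Agent.Lib.P126U
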