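import Vale.Agent.Lib.P126U.Defs

open scoped BigOperators

namespace Vale.Agent.Lib.P126U

/-- (F) Minimiser of the partition function and its first-order condition. -/
theorem gibbs_min {n : ℕ} {Y : Type*} [Fintype Y] [Nonempty Y] {P : Set (Fin n → ℝ)}
    (hPc : IsCompact P) (hPconv : Convex ℝ P) (hPne : P.Nonempty) (u : Y → Fin n → ℝ) (β : ℝ)
    (hβ : 0 < β) :
    ∃ z ∈ P, ∀ z' ∈ P,
      ∑ y, Real.exp (-β * ∑ i, z i * u y i) * ∑ i, z' i * u y i ≤
      ∑ y, Real.exp (-β * ∑ i, z i * u y i) * ∑ i, z i * u y i := by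
  let Z : (Fin n → ℝ) → ℝ := fun z => ∑ y, Real.exp (-β * ∑ i, z i * u y i)
  have hZc : Continuous Z := by fun_prop
  obtain ⟨z, hz, hmin⟩ := hPc.exists_isMinOn hPne hZc.continuousOn
  refine ⟨z, hz, fun z' hz' => ?_⟩
  set e : Y → ℝ := fun y => -β * ∑ i, z i * u y i with he
  set d : Y → ℝ := fun y => ∑ i, (z' i - z i) * u y i with hd
  let φ : ℝ → ℝ := fun s => ∑ y, Real.exp (e y + s * (-β * d y))
  have hφ : HasDerivAt φ (∑ y, Real.exp (e y) * (-β * d y)) 0 := by
    have : ∀ y ∈ (Finset.univ : Finset Y), HasDerivAt (fun s : ℝ => Real.exp (e y + s * (-β * d y)))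
        (Real.exp (e y) * (-β * d y)) 0 := by
      intro y _
      have h1 : HasDerivAt (fun s : ℝ => e y + s * (-β * d y)) (-β * d y) 0 := by
        have := ((hasDerivAt_id (0 : ℝ)).mul_const (-β * d y)).const_add (e y)
        simpa using this
      have h2 := h1.exp
      simpa using h2
    exact HasDerivAt.fun_sum this
  have hseg : ∀ s : ℝ, 0 < s → s < 1 → φ 0 ≤ φ s := by
    intro s hs0 hs1
    have hmem : (fun i => z i + s * (z' i - z i)) ∈ P := by
      have := hPconv hz hz' (by linarith : (0 : ℝ) ≤ 1 - s) hs0.le (by ring)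
      convert this using 1
      funext i
      simp only [Pi.add_apply, Pi.smul_apply, smul_eq_mul]
      ring
    have h1 := hmin hmem
    have e1 : φ 0 = Z z := by
      simp only [φ, Z, he]
      apply Finset.sum_congr rfl
      intro y _
      congr 1
      ring
    have e2 : φ s = Z (fun i => z i + s * (z' i - z i)) := by
      simp only [φ, Z, he, hd]
      apply Finset.sum_congr rfl
      intro y _
      congr 1
      have : ∑ i, (z i + s * (z' i - z i)) * u y i
          = ∑ i, z i * u y i + s * ∑ i, (z' i - z i) * u y i := by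
        rw [Finset.mul_sum, ← Finset.sum_add_distrib]
        apply Finset.sum_congr rfl
        intro i _
        ring
      rw [this]
      ring
    rw [e1, e2]
    exact h1
  have hnn : 0 ≤ ∑ y, Real.exp (e y) * (-β * d y) := by
    have hlim := hφ.tendsto_slope_zero_right
    refine ge_of_tendsto hlim ?_
    have hI : Set.Ioo (0 : ℝ) 1 ∈ nhdsWithin (0 : ℝ) (Set.Ioi 0) := Ioo_mem_nhdsGT (by norm_num)
    filter_upwards [hI] with s hs
    have := hseg s hs.1 hs.2
    simp only [smul_eq_mul, zero_add]
    exact mul_nonneg (inv_nonneg.mpr hs.1.le) (by linarith)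
  have hsplit : ∀ y, d y = ∑ i, z' i * u y i - ∑ i, z i * u y i := by
    intro y
    simp only [hd]
    rw [← Finset.sum_sub_distrib]
    apply Finset.sum_congr rfl
    intro i _
    ring
  have h2 : 0 ≤ -β * ∑ y, Real.exp (e y) * d y := by
    rw [Finset.mul_sum]
    convert hnn using 2
    ring
  have h3 : ∑ y, Real.exp (e y) * d y ≤ 0 := by
    by_contra hcon
    rw [not_le] at hcon
    have := mul_pos hβ hcon
    linarith
  have h4 : ∑ y, Real.exp (e y) * d y
      = ∑ y, Real.exp (e y) * ∑ i, z' i * u y i - ∑ y, Real.exp (e y) * ∑ i, z i * u y i := by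
    rw [← Finset.sum_sub_distrib]
    apply Finset.sum_congr rfl
    intro y _
    rw [hsplit y]
    ring
  rw [h4] at h3
  linarith

end Vale.Agent.Lib.P126U
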