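import Vale.Agent.Lib.P126U.Flip
import Vale.Agent.Lib.P126U.Gibbs

open scoped BigOperators

namespace Vale.Agent.Lib.P126U

variable {n : ℕ} {K L : Set (Fin n → ℝ)}

/-- Elements of the polar are bounded. -/
lemma polar_bdd (hL : SBody L) : ∃ R : ℝ, 0 < R ∧ ∀ z ∈ polar L, ∀ i, |z i| ≤ R := by
  obtain ⟨δ, hδ, h⟩ := hL.nbhd
  refine ⟨1 / δ, by positivity, fun z hz i => ?_⟩
  classical
  have hx : (fun j => if j = i then δ else 0) ∈ L := by
    apply h
    intro j
    split_ifs
    · rw [abs_of_pos hδ]
    · simpa using hδ.le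
  have h1 := SBody.abs_pair_le_one hL hx hz
  have h2 : |δ| * |z i| ≤ ∑ j, |(if j = i then δ else 0)| * |z j| := by
    have := Finset.single_le_sum (f := fun j => |(if j = i then δ else 0 : ℝ)| * |z j|)
      (s := Finset.univ) (fun j _ => by positivity) (Finset.mem_univ i)
    simpa using this
  rw [abs_of_pos hδ] at h2
  rw [le_div_iff₀ hδ]
  linarith

/-- The nonnegative part of the polar is compact. -/
lemma polarPos_isCompact (hL : SBody L) : IsCompact (polarPos L) := by
  obtain ⟨R, hR, hb⟩ := polar_bdd hL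
  apply Metric.isCompact_of_isClosed_isBounded
  · have h1 : polarPos L = (⋂ x ∈ L, {y : Fin n → ℝ | ∑ i, x i * y i ≤ 1}) ∩
        (⋂ i, {y : Fin n → ℝ | 0 ≤ y i}) := by
      ext y
      simp [polarPos, polar]
    rw [h1]
    apply IsClosed.inter
    · apply isClosed_biInter
      intro x _
      exact isClosed_le (by fun_prop) continuous_const
    · apply isClosed_iInter
      intro i
      exact isClosed_le continuous_const (continuous_apply i)
  · apply (Metric.isBounded_closedBall (x := (0 : Fin n → ℝ)) (r := R)).subset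
    intro z hz
    rw [mem_closedBall_zero_iff, pi_norm_le_iff_of_nonneg hR.le]
    intro i
    rw [Real.norm_eq_abs]
    exact hb z hz.1 i

/-- The nonnegative part of the polar is convex. -/
lemma polarPos_convex : Convex ℝ (polarPos L) := by
  intro y hy z hz a b ha hb hab
  constructor
  · intro x hx
    have h1 := hy.1 x hx
    have h2 := hz.1 x hx
    have e : ∑ i, x i * (a • y + b • z) i = a * ∑ i, x i * y i + b * ∑ i, x i * z i := by
      rw [Finset.mul_sum, Finset.mul_sum, ← Finset.sum_add_distrib]
      apply Finset.sum_congr rfl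
      intro i _
      simp only [Pi.add_apply, Pi.smul_apply, smul_eq_mul]
      ring
    rw [e]
    nlinarith
  · intro i
    have h1 := hy.2 i
    have h2 := hz.2 i
    simp only [Pi.add_apply, Pi.smul_apply, smul_eq_mul]
    positivity

/-- The origin lies in the nonnegative part of the polar. -/
lemma zero_mem_polarPos : (0 : Fin n → ℝ) ∈ polarPos L := by
  constructor
  · intro x _
    simp
  · intro i
    simp

/-- The absolute value of an element of the polar lies in its nonnegative part. -/
lemma abs_mem_polarPos (hL : SBody L) {z : Fin n → ℝ} (hz : z ∈ polar L) :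
    (fun i => |z i|) ∈ polarPos L := by
  constructor
  · intro x hx
    have h1 := SBody.abs_pair_le_one hL hx hz
    refine le_trans (Finset.sum_le_sum (fun i _ => ?_)) h1
    exact mul_le_mul_of_nonneg_right (le_abs_self _) (abs_nonneg _)
  · intro i
    exact abs_nonneg _

/-- (B) Core lemma: every `x ∈ K` is `28 log N`-sparse modulo `10 t L`. -/
theorem core_lemma (hK : SBody K) (hL : SBody L) {t : ℝ} (ht : 0 < t) {c : Finset (Fin n → ℝ)}
    (hc : PCover t K L c) (hN : 2 ≤ c.card) {x : Fin n → ℝ} (hx : x ∈ K) :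
    ∃ F : Finset (Fin n), (F.card : ℝ) ≤ 28 * Real.log c.card ∧
      ∀ z ∈ polar L, ∑ i ∈ Fᶜ, |z i| * |x i| ≤ 10 * t := by
  classical
  have hN' : (2 : ℝ) ≤ c.card := by exact_mod_cast hN
  have hlog2 : 0.6931471803 < Real.log 2 := Real.log_two_gt_d9
  have hq : Real.log 2 ≤ Real.log c.card := Real.log_le_log (by norm_num) hN'
  set q := Real.log c.card with hqdef
  have hq0 : 0 < q := by linarith
  rcases isEmpty_or_nonempty (Fin n) with hemp | hne
  · refine ⟨∅, by simp; positivity, fun z _ => ?_⟩
    have : (∅ : Finset (Fin n))ᶜ = ∅ := Subsingleton.elim _ _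
    rw [this]
    simp
    positivity
  set m := 4 * q with hm
  have hm0 : 0 < m := by positivity
  set τ := t / m with hτ
  have hτ0 : 0 < τ := div_pos ht hm0
  set β := 1 / τ with hβ
  have hβ0 : 0 < β := by positivity
  have hβτ : β * τ = 1 := by rw [hβ]; field_simp
  let u : Fin n → Fin n → ℝ := fun k i => if i = k then |x i| else 0
  have hu : ∀ (z : Fin n → ℝ) k, ∑ i, z i * u k i = z k * |x k| := by
    intro z k
    simp [u, Finset.sum_ite_eq']
  obtain ⟨y, hyP, hfo⟩ := gibbs_min (polarPos_isCompact hL) polarPos_convex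
    ⟨0, zero_mem_polarPos⟩ u β hβ0
  simp only [hu] at hfo
  set v : Fin n → ℝ := fun i => y i * |x i| with hv
  set w : Fin n → ℝ := fun i => Real.exp (-β * v i) with hw
  have hv0 : ∀ i, 0 ≤ v i := fun i => mul_nonneg (hyP.2 i) (abs_nonneg _)
  have hw0 : ∀ i, 0 < w i := fun i => Real.exp_pos _
  have hw1 : ∀ i, w i ≤ 1 := by
    intro i
    apply Real.exp_le_one_iff.mpr
    have := mul_nonneg hβ0.le (hv0 i)
    linarith
  have hwv : ∀ i, w i * v i ≤ τ := by
    intro i
    have h1 := Real.add_one_le_exp (β * v i)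
    have h2 : Real.exp (β * v i) * w i = 1 := by
      simp only [hw]
      rw [← Real.exp_add]
      simp
    have h3 : β * (w i * v i) ≤ 1 := by
      have h4 : β * v i * w i ≤ Real.exp (β * v i) * w i :=
        mul_le_mul_of_nonneg_right (by linarith) (hw0 i).le
      rw [h2] at h4
      linarith
    have h5 : τ * (β * (w i * v i)) ≤ τ * 1 := mul_le_mul_of_nonneg_left h3 hτ0.le
    have h6 : τ * (β * (w i * v i)) = (β * τ) * (w i * v i) := by ring
    rw [h6, hβτ] at h5
    linarith
  obtain ⟨G, hGcard, hG⟩ := flip_lemma hK hL hc hyP.1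
  have hGx : ∑ i ∈ Gᶜ, v i ≤ 4 * t := by
    refine le_trans (le_of_eq ?_) (hG x hx)
    apply Finset.sum_congr rfl
    intro i _
    simp only [hv]
    rw [abs_of_nonneg (hyP.2 i)]
    ring
  have hGm : (G.card : ℝ) ≤ m := hGcard
  have hmτ : m * τ = t := by rw [hτ]; field_simp
  -- the total weight
  have htotal : ∑ i, w i * v i ≤ 5 * t := by
    have h1 : ∑ i ∈ G, w i * v i ≤ t := by
      calc ∑ i ∈ G, w i * v i ≤ ∑ _i ∈ G, τ := Finset.sum_le_sum (fun i _ => hwv i)
        _ = G.card * τ := by rw [Finset.sum_const, nsmul_eq_mul]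
        _ ≤ m * τ := mul_le_mul_of_nonneg_right hGm hτ0.le
        _ = t := hmτ
    have h2 : ∑ i ∈ Gᶜ, w i * v i ≤ 4 * t := by
      refine le_trans (Finset.sum_le_sum (fun i _ => ?_)) hGx
      have := mul_le_mul_of_nonneg_right (hw1 i) (hv0 i)
      linarith
    rw [← Finset.sum_add_sum_compl G]
    linarith
  refine ⟨Finset.univ.filter fun i => w i < 1 / 2, ?_, ?_⟩
  · set F := Finset.univ.filter fun i => w i < 1 / 2 with hF
    -- elements of F have large v
    have hlarge : ∀ i ∈ F, τ * Real.log 2 ≤ v i := by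
      intro i hi
      rw [hF, Finset.mem_filter] at hi
      have h1 : Real.log (w i) < Real.log (1 / 2) := Real.log_lt_log (hw0 i) hi.2
      rw [Real.log_exp, one_div, Real.log_inv] at h1
      have h2 : Real.log 2 * τ ≤ (β * v i) * τ := by
        apply mul_le_mul_of_nonneg_right _ hτ0.le
        linarith
      have h3 : (β * v i) * τ = (β * τ) * v i := by ring
      rw [h3, hβτ] at h2
      linarith
    have hFG : ((F \ G).card : ℝ) * (τ * Real.log 2) ≤ 4 * t := by
      calc ((F \ G).card : ℝ) * (τ * Real.log 2) = ∑ _i ∈ F \ G, τ * Real.log 2 := by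
            rw [Finset.sum_const, nsmul_eq_mul]
        _ ≤ ∑ i ∈ F \ G, v i := by
            apply Finset.sum_le_sum
            intro i hi
            exact hlarge i (Finset.mem_sdiff.mp hi).1
        _ ≤ ∑ i ∈ Gᶜ, v i := by
            apply Finset.sum_le_sum_of_subset_of_nonneg
            · intro i hi
              rw [Finset.mem_compl]
              exact (Finset.mem_sdiff.mp hi).2
            · intro i _ _
              exact hv0 i
        _ ≤ 4 * t := hGx
    have hFG2 : ((F \ G).card : ℝ) ≤ 6 * m := by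
      have h1 : ((F \ G).card : ℝ) * (τ * Real.log 2) ≤ 4 * (m * τ) := by rw [hmτ]; exact hFG
      have h2 : ((F \ G).card : ℝ) * Real.log 2 * τ ≤ (4 * m) * τ := by nlinarith
      have h3 : ((F \ G).card : ℝ) * Real.log 2 ≤ 4 * m := le_of_mul_le_mul_right h2 hτ0
      have hc0 : (0 : ℝ) ≤ ((F \ G).card : ℝ) := by positivity
      nlinarith
    have hcard : (F.card : ℝ) ≤ (F \ G).card + G.card := by
      have : F.card ≤ (F \ G).card + G.card := by
        have h1 := Finset.card_le_card (Finset.subset_union_left (s₁ := F) (s₂ := G))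
        have h2 := Finset.card_sdiff_add_card F G
        omega
      exact_mod_cast this
    have : 28 * q = 7 * m := by rw [hm]; ring
    rw [this]
    linarith
  · intro z hz
    set F := Finset.univ.filter fun i => w i < 1 / 2 with hF
    have h1 := hfo _ (abs_mem_polarPos hL hz)
    have h2 : ∑ i ∈ Fᶜ, |z i| * |x i| ≤ 2 * ∑ i ∈ Fᶜ, w i * (|z i| * |x i|) := by
      rw [Finset.mul_sum]
      apply Finset.sum_le_sum
      intro i hi
      rw [Finset.mem_compl, hF, Finset.mem_filter] at hi
      have h3 : 1 / 2 ≤ w i := by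
        by_contra hcon
        rw [not_le] at hcon
        exact hi ⟨Finset.mem_univ _, hcon⟩
      have h4 : 0 ≤ |z i| * |x i| := by positivity
      nlinarith
    have h3 : ∑ i ∈ Fᶜ, w i * (|z i| * |x i|) ≤ ∑ i, w i * (|z i| * |x i|) :=
      Finset.sum_le_sum_of_subset_of_nonneg (Finset.subset_univ _)
        (fun i _ _ => mul_nonneg (hw0 i).le (by positivity))
    have h4 : ∑ i, w i * (|z i| * |x i|) ≤ ∑ i, w i * v i := h1
    linarith

end Vale.Agent.Lib.P126U
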