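import Mathlib

open scoped BigOperators Pointwise

namespace Vale.Agent.Lib.P126U

variable {n : ℕ}

/-- The polar of `K` for the standard inner product. -/
def polar (K : Set (Fin n → ℝ)) : Set (Fin n → ℝ) := {y | ∀ x ∈ K, ∑ i, x i * y i ≤ 1}

/-- The covering number: least number of translates `c + B`, `c` arbitrary, covering `A`. -/
noncomputable def covNum (A B : Set (Fin n → ℝ)) : ℕ :=
  sInf {k | ∃ t : Finset (Fin n → ℝ), t.card = k ∧ ∀ a ∈ A, ∃ c ∈ t, a - c ∈ B}

/-- A 1-unconditional convex body: compact convex, nonempty interior, invariant under all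
coordinate sign changes (in particular origin-symmetric). -/
structure UBody (K : Set (Fin n → ℝ)) : Prop where
  convex : Convex ℝ K
  compact : IsCompact K
  interior_nonempty : (interior K).Nonempty
  flip : ∀ x ∈ K, ∀ ε : Fin n → ℝ, (∀ i, ε i = 1 ∨ ε i = -1) → (fun i => ε i * x i) ∈ K

/-- Working form of an unconditional body (solid, bounded, neighbourhood of zero). -/
structure SBody (K : Set (Fin n → ℝ)) : Prop where
  convex : Convex ℝ K
  closed : IsClosed K
  solid : ∀ x ∈ K, ∀ y : Fin n → ℝ, (∀ i, |y i| ≤ |x i|) → y ∈ K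
  bdd : ∃ R : ℝ, 0 < R ∧ ∀ x ∈ K, ∀ i, |x i| ≤ R
  nbhd : ∃ δ : ℝ, 0 < δ ∧ ∀ x : Fin n → ℝ, (∀ i, |x i| ≤ δ) → x ∈ K

/-- `c` gives a cover of `polar L` by translates of `t • polar K`, in pairing form. -/
def PCover (t : ℝ) (K L : Set (Fin n → ℝ)) (c : Finset (Fin n → ℝ)) : Prop :=
  ∀ y ∈ polar L, ∃ c₀ ∈ c, ∀ x ∈ K, ∑ i, x i * (y i - c₀ i) ≤ t

/-- Nonnegative part of the polar. -/
def polarPos (L : Set (Fin n → ℝ)) : Set (Fin n → ℝ) := {z | z ∈ polar L ∧ ∀ i, 0 ≤ z i}

section basic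

variable {K L : Set (Fin n → ℝ)}

lemma SBody.zero_mem (hK : SBody K) : (0 : Fin n → ℝ) ∈ K := by
  obtain ⟨δ, hδ, h⟩ := hK.nbhd
  exact h 0 (fun i => by simpa using hδ.le)

/-- Pairing with absolute values is controlled: for `x ∈ K`, `y ∈ polar K`,
`∑ |x i| |y i| ≤ 1`. -/
lemma SBody.abs_pair_le_one (hK : SBody K) {x y : Fin n → ℝ} (hx : x ∈ K) (hy : y ∈ polar K) :
    ∑ i, |x i| * |y i| ≤ 1 := by
  -- flip the signs of `x` to align with `y`
  have hx' : (fun i => (if 0 ≤ y i then |x i| else -|x i|)) ∈ K := by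
    apply hK.solid x hx
    intro i
    split_ifs <;> simp
  have := hy _ hx'
  refine le_trans (le_of_eq ?_) this
  apply Finset.sum_congr rfl
  intro i _
  split_ifs with h
  · rw [abs_of_nonneg h]
  · push Not at h
    rw [abs_of_neg h]; ring

/-- Two points of one cell of a `PCover` differ little against `K`. -/
lemma cell_diam (hK : SBody K) {t : ℝ} {c₀ y y' : Fin n → ℝ}
    (h : ∀ x ∈ K, ∑ i, x i * (y i - c₀ i) ≤ t) (h' : ∀ x ∈ K, ∑ i, x i * (y' i - c₀ i) ≤ t)
    {x : Fin n → ℝ} (hx : x ∈ K) : ∑ i, |x i| * |y i - y' i| ≤ 2 * t := by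
  -- sign-aligned copy of `x`
  set x₁ : Fin n → ℝ := fun i => if 0 ≤ y i - y' i then |x i| else -|x i| with hx₁
  have hx₁K : x₁ ∈ K := by
    apply hK.solid x hx
    intro i
    simp only [hx₁]
    split_ifs <;> simp
  have hx₂K : (fun i => - x₁ i) ∈ K := by
    apply hK.solid x₁ hx₁K
    intro i; simp
  have h1 := h x₁ hx₁K
  have h2 := h' _ hx₂K
  have : ∑ i, |x i| * |y i - y' i| =
      ∑ i, x₁ i * (y i - c₀ i) + ∑ i, (- x₁ i) * (y' i - c₀ i) := by
    rw [← Finset.sum_add_distrib]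
    apply Finset.sum_congr rfl
    intro i _
    simp only [hx₁]
    split_ifs with hi
    · rw [abs_of_nonneg hi]; ring
    · push Not at hi
      rw [abs_of_neg hi]; ring
  rw [this]; linarith

end basic

end Vale.Agent.Lib.P126U
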