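import Vale.Agent.Lib.P126U.Sep

open scoped BigOperators Pointwise Topology

namespace Vale.Agent.Lib.P126U

variable {n : ℕ} {K L : Set (Fin n → ℝ)}

/-- Sign changes generate the whole box: induction on the set of free coordinates. -/
lemma UBody.solid_aux (hK : UBody K) {x : Fin n → ℝ} (hx : x ∈ K) (S : Finset (Fin n)) :
    ∀ y : Fin n → ℝ, (∀ i ∈ S, |y i| ≤ |x i|) → (∀ i, i ∉ S → |y i| = |x i|) → y ∈ K := by
  induction S using Finset.induction_on with
  | empty =>
    intro y _ hy
    have h : y = fun i => (if y i = x i then (1 : ℝ) else -1) * x i := by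
      funext i
      rcases abs_eq_abs.mp (hy i (by simp)) with h | h
      · simp [h]
      · by_cases h' : y i = x i
        · simp [h']
        · simp [h]
    rw [h]
    exact hK.flip x hx _ (fun i => by split_ifs <;> simp)
  | insert a S ha ih =>
    intro y h1 h2
    set r := |x a| with hr
    have hr0 : 0 ≤ r := abs_nonneg _
    have hya : |y a| ≤ r := h1 a (Finset.mem_insert_self _ _)
    have hup : Function.update y a r ∈ K := by
      apply ih
      · intro i hi
        have hia : i ≠ a := fun h => ha (h ▸ hi)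
        rw [Function.update_of_ne hia]
        exact h1 i (Finset.mem_insert_of_mem hi)
      · intro i hi
        by_cases hia : i = a
        · subst hia
          rw [Function.update_self, abs_of_nonneg hr0]
        · rw [Function.update_of_ne hia]
          exact h2 i (by simp [hia, hi])
    have hdown : Function.update y a (-r) ∈ K := by
      apply ih
      · intro i hi
        have hia : i ≠ a := fun h => ha (h ▸ hi)
        rw [Function.update_of_ne hia]
        exact h1 i (Finset.mem_insert_of_mem hi)
      · intro i hi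
        by_cases hia : i = a
        · subst hia
          rw [Function.update_self, abs_neg, abs_of_nonneg hr0]
        · rw [Function.update_of_ne hia]
          exact h2 i (by simp [hia, hi])
    by_cases hr1 : r = 0
    · have hy0 : y a = 0 := by
        rw [hr1] at hya
        exact abs_eq_zero.mp (le_antisymm hya (abs_nonneg _))
      have h : y = Function.update y a r := by
        funext i
        by_cases hia : i = a
        · subst hia
          rw [Function.update_self, hy0, hr1]
        · rw [Function.update_of_ne hia]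
      rw [h]
      exact hup
    · have hrpos : 0 < r := lt_of_le_of_ne hr0 (Ne.symm hr1)
      have hb := abs_le.mp hya
      have h1' : 0 ≤ (y a + r) / (2 * r) := div_nonneg (by linarith) (by linarith)
      have h2' : 0 ≤ (r - y a) / (2 * r) := div_nonneg (by linarith) (by linarith)
      have h3' : (y a + r) / (2 * r) + (r - y a) / (2 * r) = 1 := by
        field_simp
        ring
      have hconv := hK.convex hup hdown h1' h2' h3'
      convert hconv using 1
      funext i
      by_cases hia : i = a
      · subst hia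
        simp only [Pi.add_apply, Pi.smul_apply, smul_eq_mul, Function.update_self]
        field_simp
        ring
      · simp only [Pi.add_apply, Pi.smul_apply, smul_eq_mul, Function.update_of_ne hia]
        rw [← add_mul, h3', one_mul]

/-- (H) Unconditional bodies are solid. -/
theorem UBody.sbody (hK : UBody K) : SBody K where
  convex := hK.convex
  closed := hK.compact.isClosed
  solid x hx y hy := hK.solid_aux hx Finset.univ y (fun i _ => hy i)
    (fun i hi => absurd (Finset.mem_univ i) hi)
  bdd := by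
    obtain ⟨R, hR⟩ := hK.compact.isBounded.exists_norm_le
    refine ⟨max R 1, by positivity, fun x hx i => ?_⟩
    exact ((norm_le_pi_norm x i).trans (hR x hx)).trans (le_max_left _ _)
  nbhd := by
    obtain ⟨p, hp⟩ := hK.interior_nonempty
    obtain ⟨ε, hε, hball⟩ := Metric.mem_nhds_iff.mp (mem_interior_iff_mem_nhds.mp hp)
    refine ⟨ε / 2, by positivity, fun x hx => ?_⟩
    have hxn : ‖x‖ < ε := by
      have : ‖x‖ ≤ ε / 2 := (pi_norm_le_iff_of_nonneg (by positivity)).mpr hx
      linarith
    have h1 : p + x ∈ K := hball (by simpa [dist_eq_norm] using hxn)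
    have h2 : p - x ∈ K := hball (by simpa [dist_eq_norm] using hxn)
    have h3 : (fun i => (-1 : ℝ) * (p - x) i) ∈ K :=
      hK.flip _ h2 _ (fun _ => Or.inr rfl)
    have h4 := hK.convex h1 h3 (a := 1 / 2) (b := 1 / 2) (by norm_num) (by norm_num) (by norm_num)
    convert h4 using 1
    funext i
    simp only [Pi.add_apply, Pi.smul_apply, smul_eq_mul, Pi.sub_apply]
    ring

lemma isClosed_polar (K : Set (Fin n → ℝ)) : IsClosed (P126U.polar K) := by
  have h : P126U.polar K = ⋂ x ∈ K, {y : Fin n → ℝ | ∑ i, x i * y i ≤ 1} := by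
    ext y
    simp [P126U.polar]
  rw [h]
  exact isClosed_biInter fun x _ => isClosed_le (by fun_prop) continuous_const

lemma convex_polar (K : Set (Fin n → ℝ)) : Convex ℝ (P126U.polar K) := by
  intro y hy y' hy' a b ha hb hab x hx
  have h1 := hy x hx
  have h2 := hy' x hx
  have h : ∑ i, x i * (a • y + b • y') i = a * ∑ i, x i * y i + b * ∑ i, x i * y' i := by
    rw [Finset.mul_sum, Finset.mul_sum, ← Finset.sum_add_distrib]
    refine Finset.sum_congr rfl fun i _ => ?_
    simp only [Pi.add_apply, Pi.smul_apply, smul_eq_mul]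
    ring
  rw [h]
  have h3 := mul_le_mul_of_nonneg_left h1 ha
  have h4 := mul_le_mul_of_nonneg_left h2 hb
  linarith

lemma zero_mem_polar (K : Set (Fin n → ℝ)) : (0 : Fin n → ℝ) ∈ P126U.polar K := by
  intro x _
  simp

/-- Points of the polar are bounded when the body contains a box. -/
lemma abs_le_of_mem_polar {δ : ℝ} (hδ : 0 < δ) (hbox : ∀ x : Fin n → ℝ, (∀ i, |x i| ≤ δ) → x ∈ K)
    {y : Fin n → ℝ} (hy : y ∈ P126U.polar K) (i : Fin n) : |y i| ≤ 1 / δ := by
  set x : Fin n → ℝ := fun j => if j = i then (if 0 ≤ y i then δ else -δ) else 0 with hx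
  have hxK : x ∈ K := by
    apply hbox
    intro j
    simp only [hx]
    split_ifs
    · rw [abs_of_pos hδ]
    · rw [abs_neg, abs_of_pos hδ]
    · simpa using hδ.le
  have h := hy x hxK
  have h2 : ∑ j, x j * y j = δ * |y i| := by
    rw [Finset.sum_eq_single i]
    · simp only [hx, if_true]
      split_ifs with h0
      · rw [abs_of_nonneg h0]
      · rw [abs_of_neg (not_le.mp h0)]
        ring
    · intro j _ hj
      simp [hx, hj]
    · intro hi
      exact absurd (Finset.mem_univ i) hi
  rw [h2] at h
  rw [le_div_iff₀ hδ]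
  linarith

/-- A bounded set has a polar containing a box. -/
lemma box_mem_polar {R : ℝ} (hR0 : 0 < R) (hR : ∀ x ∈ K, ∀ i, |x i| ≤ R) {y : Fin n → ℝ}
    (hy : ∀ i, |y i| ≤ 1 / ((n + 1) * R)) : y ∈ P126U.polar K := by
  intro x hx
  have hn : (0 : ℝ) < (n + 1) * R := by positivity
  calc ∑ i, x i * y i ≤ ∑ i : Fin n, (R * (1 / ((n + 1) * R))) := by
        refine Finset.sum_le_sum fun i _ => ?_
        calc x i * y i ≤ |x i * y i| := le_abs_self _
          _ = |x i| * |y i| := abs_mul _ _
          _ ≤ _ := mul_le_mul (hR x hx i) (hy i) (abs_nonneg _) hR0.le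
    _ = (n : ℝ) * (R * (1 / ((n + 1) * R))) := by simp
    _ ≤ 1 := by
        have : (n : ℝ) * (R * (1 / ((n + 1) * R))) = n / (n + 1) := by
          field_simp
        rw [this, div_le_one (by positivity)]
        linarith

/-- (H) Polar of an unconditional body. -/
theorem UBody.polar (hK : UBody K) : UBody (P126U.polar K) := by
  have hS := hK.sbody
  obtain ⟨δ, hδ, hbox⟩ := hS.nbhd
  obtain ⟨R, hR0, hR⟩ := hS.bdd
  refine ⟨convex_polar K, ?_, ?_, ?_⟩
  · refine Metric.isCompact_of_isClosed_isBounded (isClosed_polar K) ?_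
    refine isBounded_iff_forall_norm_le.mpr ⟨1 / δ, fun y hy => ?_⟩
    exact (pi_norm_le_iff_of_nonneg (by positivity)).mpr fun i => abs_le_of_mem_polar hδ hbox hy i
  · refine ⟨0, mem_interior_iff_mem_nhds.mpr ?_⟩
    have hr : (0 : ℝ) < 1 / ((n + 1) * R) := by positivity
    refine Filter.mem_of_superset (Metric.closedBall_mem_nhds (0 : Fin n → ℝ) hr) fun y hy => ?_
    apply box_mem_polar hR0 hR
    intro i
    have h1 : ‖y‖ ≤ 1 / ((n + 1) * R) := by simpa using hy
    exact (norm_le_pi_norm y i).trans h1
  · intro y hy ε hε x hx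
    have h := hy _ (hK.flip x hx ε hε)
    refine le_trans (le_of_eq ?_) h
    refine Finset.sum_congr rfl fun i _ => ?_
    ring

/-- (H) Bipolar theorem for unconditional bodies. -/
theorem UBody.polar_polar (hK : UBody K) : P126U.polar (P126U.polar K) = K := by
  apply Set.Subset.antisymm
  · intro x hx
    by_contra hxK
    obtain ⟨f, u, hfu, hux⟩ :=
      geometric_hahn_banach_closed_point hK.convex hK.compact.isClosed hxK
    have h0 : (0 : Fin n → ℝ) ∈ K := hK.sbody.zero_mem
    have hu : 0 < u := by simpa using hfu 0 h0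
    set y : Fin n → ℝ := fun i => f (fun j => if i = j then 1 else 0) / u with hy
    have hf : ∀ a : Fin n → ℝ, f a = u * ∑ i, a i * y i := by
      intro a
      have h1 := LinearMap.pi_apply_eq_sum_univ (f : (Fin n → ℝ) →ₗ[ℝ] ℝ) a
      have h2 : f a = ∑ i, a i * f (fun j => if i = j then 1 else 0) := by
        simpa using h1
      rw [h2, Finset.mul_sum]
      refine Finset.sum_congr rfl fun i _ => ?_
      simp only [hy]
      field_simp
    have hyK : y ∈ P126U.polar K := by
      intro a ha
      have h1 := hfu a ha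
      rw [hf a] at h1
      by_contra h2
      have h3 : (1 : ℝ) < ∑ i, a i * y i := not_le.mp h2
      nlinarith
    have h1 : ∑ i, y i * x i ≤ 1 := hx y hyK
    rw [hf x] at hux
    have h2 : ∑ i, x i * y i = ∑ i, y i * x i := Finset.sum_congr rfl fun i _ => mul_comm _ _
    rw [h2] at hux
    nlinarith
  · intro x hx y hy
    have h := hy x hx
    refine le_trans (le_of_eq ?_) h
    exact Finset.sum_congr rfl fun i _ => mul_comm _ _

/-- Scaling an unconditional body. -/
lemma UBody.smul (hK : UBody K) {r : ℝ} (hr : 0 < r) : UBody (r • K) where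
  convex := hK.convex.smul r
  compact := hK.compact.smul r
  interior_nonempty := by
    rw [interior_smul₀ hr.ne']
    exact hK.interior_nonempty.smul_set
  flip := by
    rintro _ ⟨x, hx, rfl⟩ ε hε
    refine ⟨_, hK.flip x hx ε hε, ?_⟩
    funext i
    simp only [Pi.smul_apply, smul_eq_mul]
    ring

lemma polar_smul {r : ℝ} (hr : 0 < r) (A : Set (Fin n → ℝ)) :
    P126U.polar (r • A) = r⁻¹ • P126U.polar A := by
  ext y
  constructor
  · intro hy
    refine ⟨r • y, ?_, by simp [smul_smul, hr.ne']⟩
    intro a ha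
    have h := hy (r • a) ⟨a, ha, rfl⟩
    refine le_trans (le_of_eq ?_) h
    refine Finset.sum_congr rfl fun i _ => ?_
    simp only [Pi.smul_apply, smul_eq_mul]
    ring
  · rintro ⟨w, hw, rfl⟩ _ ⟨a, ha, rfl⟩
    have h := hw a ha
    refine le_trans (le_of_eq ?_) h
    refine Finset.sum_congr rfl fun i _ => ?_
    simp only [Pi.smul_apply, smul_eq_mul]
    field_simp

lemma covNum_smul {r : ℝ} (hr : r ≠ 0) (A B : Set (Fin n → ℝ)) :
    covNum (r • A) (r • B) = covNum A B := by
  unfold covNum
  congr 1
  ext k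
  constructor
  · rintro ⟨t, rfl, ht⟩
    refine ⟨t.image (fun c => r⁻¹ • c), ?_, ?_⟩
    · exact Finset.card_image_of_injective _ (smul_right_injective _ (inv_ne_zero hr))
    · intro a ha
      obtain ⟨c, hc, hc'⟩ := ht (r • a) ⟨a, ha, rfl⟩
      refine ⟨r⁻¹ • c, Finset.mem_image_of_mem _ hc, ?_⟩
      obtain ⟨b, hb, hb'⟩ := hc'
      have : a - r⁻¹ • c = b := by
        have h2 : a = r⁻¹ • (r • a) := by simp [smul_smul, hr]
        rw [h2, ← smul_sub, ← hb']
        simp [smul_smul, hr]
      rwa [this]
  · rintro ⟨t, rfl, ht⟩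
    refine ⟨t.image (fun c => r • c), ?_, ?_⟩
    · exact Finset.card_image_of_injective _ (smul_right_injective _ hr)
    · rintro _ ⟨a, ha, rfl⟩
      obtain ⟨c, hc, hc'⟩ := ht a ha
      refine ⟨r • c, Finset.mem_image_of_mem _ hc, a - c, hc', ?_⟩
      simp [smul_sub]

lemma covNum_le_card {A B : Set (Fin n → ℝ)} (t : Finset (Fin n → ℝ))
    (h : ∀ a ∈ A, ∃ c ∈ t, a - c ∈ B) : covNum A B ≤ t.card :=
  Nat.sInf_le ⟨t, rfl, h⟩

lemma UBody.mem_nhds_zero (hK : UBody K) : K ∈ 𝓝 (0 : Fin n → ℝ) := by
  obtain ⟨δ, hδ, hbox⟩ := hK.sbody.nbhd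
  refine Filter.mem_of_superset (Metric.closedBall_mem_nhds (0 : Fin n → ℝ) hδ) fun y hy => ?_
  apply hbox
  intro i
  have h1 : ‖y‖ ≤ δ := by simpa using hy
  exact (norm_le_pi_norm y i).trans h1

/-- Finite covers exist. -/
lemma exists_cover {A B : Set (Fin n → ℝ)} (hA : IsCompact A) (hB : B ∈ 𝓝 (0 : Fin n → ℝ)) :
    ∃ t : Finset (Fin n → ℝ), ∀ a ∈ A, ∃ c ∈ t, a - c ∈ B := by
  obtain ⟨t, _, ht⟩ := hA.elim_nhds_subcover (fun x => {a | a - x ∈ B}) (by
    intro x _
    have hc : ContinuousAt (fun a : Fin n → ℝ => a - x) x := by fun_prop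
    apply hc.preimage_mem_nhds
    simpa using hB)
  refine ⟨t, fun a ha => ?_⟩
  have h := ht ha
  simp only [Set.mem_iUnion, Set.mem_ofPred_eq, exists_prop] at h
  exact h

lemma covNum_spec {A B : Set (Fin n → ℝ)} (hA : IsCompact A) (hB : B ∈ 𝓝 (0 : Fin n → ℝ)) :
    ∃ t : Finset (Fin n → ℝ), t.card = covNum A B ∧ ∀ a ∈ A, ∃ c ∈ t, a - c ∈ B := by
  obtain ⟨t, ht⟩ := exists_cover hA hB
  have hne : {k | ∃ t : Finset (Fin n → ℝ), t.card = k ∧ ∀ a ∈ A, ∃ c ∈ t, a - c ∈ B}.Nonempty :=
    ⟨t.card, t, rfl, ht⟩
  exact Nat.sInf_mem hne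

/-- Separated families in `K` and their bound, from `sep_bound`. -/
lemma sep_card_le (hK : UBody K) (hL : UBody L) {c : Finset (Fin n → ℝ)}
    (hc : PCover (1 / 128) K L c) (hN : 2 ≤ c.card) (F : Finset (Fin n → ℝ))
    (hFK : ∀ x ∈ F, x ∈ K) (hsep : ∀ x ∈ F, ∀ x' ∈ F, x ≠ x' → x - x' ∉ L) :
    Real.log F.card ≤ 500 * Real.log c.card := by
  apply sep_bound hK.sbody hL.sbody hc hN F hFK
  intro x hx x' hx' hne
  have h1 := hsep x hx x' hx' hne
  rw [← hL.polar_polar] at h1
  simp only [P126U.polar, Set.mem_ofPred_eq, not_forall, not_le] at h1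
  obtain ⟨z, hz, h2⟩ := h1
  refine ⟨z, hz, h2.trans_le ?_⟩
  refine Finset.sum_le_sum fun i _ => ?_
  calc z i * (x - x') i ≤ |z i * (x - x') i| := le_abs_self _
    _ = |z i| * |x i - x' i| := by rw [abs_mul, Pi.sub_apply]

/-- (H) One inequality of the duality. -/
theorem covNum_le (hK : UBody K) (hL : UBody L) :
    Real.log (covNum K L) ≤ 500 * Real.log (covNum (P126U.polar L) ((128 : ℝ)⁻¹ • P126U.polar K)) := by
  have hr : (0 : ℝ) < (128 : ℝ)⁻¹ := by norm_num
  have hB := (hK.polar.smul hr).mem_nhds_zero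
  obtain ⟨c, hcard, hcov⟩ := covNum_spec hL.polar.compact hB
  rw [← hcard]
  have hnn : 0 ≤ Real.log c.card := Real.log_natCast_nonneg _
  have hPC : PCover (1 / 128) K L c := by
    intro y hy
    obtain ⟨c₀, hc₀, w, hw, hw'⟩ := hcov y hy
    refine ⟨c₀, hc₀, fun x hx => ?_⟩
    have h := hw x hx
    have h2 : ∑ i, x i * (y i - c₀ i) = (128 : ℝ)⁻¹ * ∑ i, x i * w i := by
      rw [Finset.mul_sum]
      refine Finset.sum_congr rfl fun i _ => ?_
      have h3 : (y - c₀) i = ((128 : ℝ)⁻¹ • w) i := by rw [← hw']
      simp only [Pi.sub_apply, Pi.smul_apply, smul_eq_mul] at h3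
      rw [h3]
      ring
    rw [h2]
    have h3 := mul_le_mul_of_nonneg_left h hr.le
    linarith
  by_cases hN : 2 ≤ c.card
  · -- many cells: maximal separated family
    set S : Set ℕ := {k | ∃ F : Finset (Fin n → ℝ), F.card = k ∧ (∀ x ∈ F, x ∈ K) ∧
      ∀ x ∈ F, ∀ x' ∈ F, x ≠ x' → x - x' ∉ L} with hS
    have hSne : S.Nonempty := ⟨0, ∅, rfl, by simp, by simp⟩
    have hSb : BddAbove S := by
      refine ⟨⌈Real.exp (500 * Real.log c.card)⌉₊, ?_⟩
      rintro k ⟨F, rfl, hF1, hF2⟩
      have h := sep_card_le hK hL hPC hN F hF1 hF2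
      by_cases h0 : F.card = 0
      · rw [h0]
        exact Nat.zero_le _
      · have hpos : (0 : ℝ) < F.card := by
          exact_mod_cast Nat.pos_of_ne_zero h0
        have h2 : (F.card : ℝ) ≤ Real.exp (500 * Real.log c.card) :=
          (Real.log_le_iff_le_exp hpos).mp h
        exact_mod_cast h2.trans (Nat.le_ceil _)
    obtain ⟨F, hFc, hF1, hF2⟩ := Nat.sSup_mem hSne hSb
    have hL0 : (0 : Fin n → ℝ) ∈ L := hL.sbody.zero_mem
    have hcovF : ∀ a ∈ K, ∃ c ∈ F, a - c ∈ L := by
      intro a ha
      by_contra hcon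
      push Not at hcon
      have haF : a ∉ F := by
        intro h
        have := hcon a h
        simp only [sub_self] at this
        exact this hL0
      have hins : (insert a F).card ∈ S := by
        refine ⟨insert a F, rfl, ?_, ?_⟩
        · intro x hx
          rcases Finset.mem_insert.mp hx with rfl | hx
          · exact ha
          · exact hF1 x hx
        · intro x hx x' hx' hne
          rcases Finset.mem_insert.mp hx with h1 | h1
          · rcases Finset.mem_insert.mp hx' with h2 | h2
            · exact absurd (h1.trans h2.symm) hne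
            · rw [h1]
              exact hcon x' h2
          · rcases Finset.mem_insert.mp hx' with h2 | h2
            · intro h
              apply hcon x h1
              rw [h2] at h
              exact hL.sbody.solid _ h (a - x) (fun i => by
                simp [abs_sub_comm])
            · exact hF2 x h1 x' h2 hne
      have h1 : (insert a F).card ≤ sSup S := le_csSup hSb hins
      rw [Finset.card_insert_of_notMem haF, ← hFc] at h1
      omega
    have h1 := covNum_le_card F hcovF
    have h2 := sep_card_le hK hL hPC hN F hF1 hF2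
    by_cases h0 : covNum K L = 0
    · rw [h0]
      simp only [Nat.cast_zero, Real.log_zero]
      positivity
    · have h3 : (0 : ℝ) < covNum K L := by
        exact_mod_cast Nat.pos_of_ne_zero h0
      have h4 : (covNum K L : ℝ) ≤ F.card := by exact_mod_cast h1
      exact (Real.log_le_log h3 h4).trans h2
  · -- at most one cell
    have hone : c.card ≤ 1 := by omega
    have heq := Finset.card_le_one.mp hone
    have hsub : ∀ a ∈ K, ∃ c ∈ ({0} : Finset (Fin n → ℝ)), a - c ∈ L := by
      intro x hx
      refine ⟨0, by simp, ?_⟩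
      rw [sub_zero, ← hL.polar_polar]
      intro y hy
      have hy' : (fun i => (-1 : ℝ) * y i) ∈ P126U.polar L :=
        hL.polar.flip y hy _ (fun _ => Or.inr rfl)
      obtain ⟨c₁, hc₁, h1⟩ := hPC y hy
      obtain ⟨c₂, hc₂, h2⟩ := hPC _ hy'
      rw [heq c₂ hc₂ c₁ hc₁] at h2
      have hx' : (fun i => (-1 : ℝ) * x i) ∈ K := hK.flip x hx _ (fun _ => Or.inr rfl)
      have h3 := h1 x hx
      have h4 := h2 _ hx'
      have h5 : ∑ i, (-1 * x i) * (-1 * y i - c₁ i) = ∑ i, x i * y i + ∑ i, x i * c₁ i := by
        rw [← Finset.sum_add_distrib]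
        refine Finset.sum_congr rfl fun i _ => ?_
        ring
      have h6 : ∑ i, x i * (y i - c₁ i) = ∑ i, x i * y i - ∑ i, x i * c₁ i := by
        rw [← Finset.sum_sub_distrib]
        refine Finset.sum_congr rfl fun i _ => ?_
        ring
      rw [h5] at h4
      rw [h6] at h3
      have h7 : ∑ i, y i * x i = ∑ i, x i * y i := Finset.sum_congr rfl fun i _ => mul_comm _ _
      rw [h7]
      linarith
    have h1 := covNum_le_card _ hsub
    simp only [Finset.card_singleton] at h1
    have h2 : Real.log (covNum K L) = 0 := by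
      have h3 : covNum K L = 0 ∨ covNum K L = 1 := by omega
      rcases h3 with h3 | h3 <;> simp [h3]
    rw [h2]
    positivity

/-- (H) Both inequalities. -/
theorem duality (hK : UBody K) (hL : UBody L) :
    (1 / 500 : ℝ) * Real.log (covNum (P126U.polar L) ((128 : ℝ) • P126U.polar K))
        ≤ Real.log (covNum K L) ∧
      Real.log (covNum K L) ≤
        500 * Real.log (covNum (P126U.polar L) ((128 : ℝ)⁻¹ • P126U.polar K)) := by
  refine ⟨?_, covNum_le hK hL⟩
  have h128 : (0 : ℝ) < 128 := by norm_num
  have h := covNum_le hL.polar (hK.polar.smul h128)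
  rw [polar_smul h128, hK.polar_polar, hL.polar_polar, covNum_smul (by norm_num)] at h
  linarith

end Vale.Agent.Lib.P126U
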