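import Vale.Agent.Lib.P126U.Defs

open scoped BigOperators

namespace Vale.Agent.Lib.P126U

variable {n : ℕ} {K L : Set (Fin n → ℝ)}

/-- The sign attached to a Boolean. -/
def sg (b : Bool) : ℝ := if b then 1 else -1

lemma sg_sq (b : Bool) : sg b * sg b = 1 := by
  cases b <;> simp [sg]

lemma abs_sg (b : Bool) : |sg b| = 1 := by
  cases b <;> simp [sg]

/-- Polars of solid bodies are invariant under sign changes. -/
lemma flip_mem_polar (hL : SBody L) {y : Fin n → ℝ} (hy : y ∈ polar L) (ω : Fin n → Bool) :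
    (fun i => sg (ω i) * y i) ∈ polar L := by
  intro x hx
  have hx' : (fun i => sg (ω i) * x i) ∈ L := by
    apply hL.solid x hx
    intro i
    rw [abs_mul, abs_sg, one_mul]
  have := hy _ hx'
  refine le_trans (le_of_eq ?_) this
  apply Finset.sum_congr rfl
  intro i _
  ring

/-- The exponential moment over the whole cube. -/
lemma sum_exp_cube (b : Fin n → ℝ) :
    ∑ ω : Fin n → Bool, Real.exp (∑ i, b i * sg (ω i)) = ∏ i, (Real.exp (b i) + Real.exp (-b i)) := by
  have h := Finset.prod_univ_sum (fun _ : Fin n => (Finset.univ : Finset Bool))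
    (fun i (c : Bool) => Real.exp (b i * sg c))
  have e1 : ∀ i : Fin n, ∑ c : Bool, Real.exp (b i * sg c) = Real.exp (b i) + Real.exp (-b i) := by
    intro i
    simp [sg]
  simp only [e1] at h
  rw [h, Fintype.piFinset_univ]
  apply Finset.sum_congr rfl
  intro ω _
  rw [Real.exp_sum]

/-- Level-1 inequality on the discrete cube. -/
lemma level_one (S : Finset (Fin n → Bool)) (hS : S.Nonempty) (N : ℝ) (hN : 0 < N)
    (hcard : (2 : ℝ) ^ n ≤ N * S.card) (b : Fin n → ℝ)
    (hb : ∀ i, b i = (∑ ω ∈ S, sg (ω i)) / S.card) :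
    ∑ i, b i ^ 2 ≤ 2 * Real.log N := by
  have hs : (0 : ℝ) < S.card := by exact_mod_cast hS.card_pos
  set A := ∑ i, b i ^ 2 with hA
  -- average of the linear form
  have hsum : ∑ ω ∈ S, ∑ i, b i * sg (ω i) = S.card * A := by
    rw [Finset.sum_comm, hA, Finset.mul_sum]
    apply Finset.sum_congr rfl
    intro i _
    rw [← Finset.mul_sum]
    have : ∑ ω ∈ S, sg (ω i) = S.card * b i := by
      rw [hb i]; field_simp
    rw [this]; ring
  -- lower bound
  have hlow : S.card * Real.exp A ≤ ∑ ω ∈ S, Real.exp (∑ i, b i * sg (ω i)) := by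
    have h1 : ∀ ω ∈ S, Real.exp A * (1 + (∑ i, b i * sg (ω i) - A))
        ≤ Real.exp (∑ i, b i * sg (ω i)) := by
      intro ω _
      have h2 := Real.add_one_le_exp (∑ i, b i * sg (ω i) - A)
      have h3 : Real.exp (∑ i, b i * sg (ω i)) = Real.exp A * Real.exp (∑ i, b i * sg (ω i) - A) := by
        rw [← Real.exp_add]; congr 1; ring
      rw [h3]
      apply mul_le_mul_of_nonneg_left _ (Real.exp_pos _).le
      linarith
    have h4 := Finset.sum_le_sum h1
    refine le_trans (le_of_eq ?_) h4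
    rw [← Finset.mul_sum, Finset.sum_add_distrib, Finset.sum_sub_distrib, hsum]
    simp
    ring
  -- upper bound
  have hup : ∑ ω ∈ S, Real.exp (∑ i, b i * sg (ω i)) ≤ (2 : ℝ) ^ n * Real.exp (A / 2) := by
    have h1 : ∑ ω ∈ S, Real.exp (∑ i, b i * sg (ω i))
        ≤ ∑ ω : Fin n → Bool, Real.exp (∑ i, b i * sg (ω i)) :=
      Finset.sum_le_sum_of_subset_of_nonneg (Finset.subset_univ _) (fun _ _ _ => (Real.exp_pos _).le)
    rw [sum_exp_cube] at h1
    have h2 : ∏ i, (Real.exp (b i) + Real.exp (-b i)) ≤ ∏ i : Fin n, (2 * Real.exp (b i ^ 2 / 2)) := by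
      apply Finset.prod_le_prod
      · intro i _; positivity
      · intro i _
        have := Real.cosh_le_exp_half_sq (b i)
        rw [Real.cosh_eq] at this
        linarith
    have h3 : ∏ i : Fin n, (2 * Real.exp (b i ^ 2 / 2)) = (2 : ℝ) ^ n * Real.exp (A / 2) := by
      rw [Finset.prod_mul_distrib, ← Real.exp_sum]
      simp only [Finset.prod_const, Finset.card_univ, Fintype.card_fin]
      congr 2
      rw [hA, Finset.sum_div]
    linarith
  -- conclusion
  have h5 : S.card * Real.exp A ≤ N * S.card * Real.exp (A / 2) := by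
    calc (S.card : ℝ) * Real.exp A ≤ (2 : ℝ) ^ n * Real.exp (A / 2) := le_trans hlow hup
      _ ≤ N * S.card * Real.exp (A / 2) := by
          apply mul_le_mul_of_nonneg_right hcard (Real.exp_pos _).le
  have h6 : Real.exp (A / 2) ≤ N := by
    have e : Real.exp A = Real.exp (A / 2) * Real.exp (A / 2) := by
      rw [← Real.exp_add]; congr 1; ring
    rw [e] at h5
    have hpos := Real.exp_pos (A / 2)
    have h7 : (S.card : ℝ) * Real.exp (A / 2) * Real.exp (A / 2)
        ≤ (S.card : ℝ) * N * Real.exp (A / 2) := by nlinarith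
    have h8 := le_of_mul_le_mul_right h7 hpos
    exact le_of_mul_le_mul_left h8 hs
  have h7 := (Real.le_log_iff_exp_le hN).mpr h6
  linarith

/-- (A) Flip lemma. -/
theorem flip_lemma (hK : SBody K) (hL : SBody L) {t : ℝ} {c : Finset (Fin n → ℝ)}
    (hc : PCover t K L c) {y : Fin n → ℝ} (hy : y ∈ polar L) :
    ∃ G : Finset (Fin n), (G.card : ℝ) ≤ 4 * Real.log c.card ∧
      ∀ x ∈ K, ∑ i ∈ Gᶜ, |x i| * |y i| ≤ 4 * t := by
  classical
  -- cells
  have hcell : ∀ ω : Fin n → Bool, ∃ c₀ ∈ c, ∀ x ∈ K, ∑ i, x i * (sg (ω i) * y i - c₀ i) ≤ t :=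
    fun ω => hc _ (flip_mem_polar hL hy ω)
  choose f hfc hf using hcell
  have hne : c.Nonempty := ⟨f (fun _ => true), hfc _⟩
  have hNpos : (0 : ℝ) < c.card := by exact_mod_cast hne.card_pos
  -- pigeonhole
  obtain ⟨c₀, _, hc₀⟩ : ∃ c₀ ∈ c, (2 : ℝ) ^ n ≤ c.card * (Finset.univ.filter fun ω => f ω = c₀).card := by
    by_contra hcon
    push Not at hcon
    have h1 : ∑ c₀ ∈ c, ((Finset.univ.filter fun ω => f ω = c₀).card : ℝ) = (2 : ℝ) ^ n := by
      have := Finset.card_eq_sum_card_fiberwise (s := (Finset.univ : Finset (Fin n → Bool)))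
        (t := c) (f := f) (fun ω _ => hfc ω)
      have h2 : ((Finset.univ : Finset (Fin n → Bool)).card : ℝ) = (2 : ℝ) ^ n := by
        simp
      rw [← h2, this]
      push_cast
      rfl
    have h2 : ∑ c₀ ∈ c, ((Finset.univ.filter fun ω => f ω = c₀).card : ℝ)
        < ∑ _c₀ ∈ c, (2 : ℝ) ^ n / c.card := by
      apply Finset.sum_lt_sum_of_nonempty hne
      intro c₀ hc₀
      rw [lt_div_iff₀ hNpos, mul_comm]
      exact hcon c₀ hc₀
    rw [h1, Finset.sum_const, nsmul_eq_mul] at h2
    have h3 : (c.card : ℝ) * ((2 : ℝ) ^ n / c.card) = (2 : ℝ) ^ n := by field_simp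
    linarith
  set S := Finset.univ.filter fun ω => f ω = c₀ with hS
  have hSne : S.Nonempty := by
    by_contra hcon
    rw [Finset.not_nonempty_iff_eq_empty] at hcon
    rw [hcon] at hc₀
    simp at hc₀
    have : (0 : ℝ) < 2 ^ n := by positivity
    linarith
  have hs : (0 : ℝ) < S.card := by exact_mod_cast hSne.card_pos
  set b : Fin n → ℝ := fun i => (∑ ω ∈ S, sg (ω i)) / S.card with hb
  have hlevel := level_one S hSne (c.card : ℝ) hNpos hc₀ b (fun i => rfl)
  -- pair counting
  have hpairs : ∀ i, ∑ ω ∈ S, ∑ ω' ∈ S, (if ω i = ω' i then (0 : ℝ) else 1)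
      = S.card ^ 2 * ((1 - b i ^ 2) / 2) := by
    intro i
    have e1 : ∀ ω ω' : Fin n → Bool, (if ω i = ω' i then (0 : ℝ) else 1)
        = (1 - sg (ω i) * sg (ω' i)) / 2 := by
      intro ω ω'
      cases h1 : ω i <;> cases h2 : ω' i <;> simp [sg]
    simp_rw [e1]
    have e2 : ∑ ω ∈ S, sg (ω i) = S.card * b i := by
      simp only [hb]; field_simp
    have e3 : ∑ ω ∈ S, ∑ ω' ∈ S, (1 - sg (ω i) * sg (ω' i)) / 2
        = ((S.card : ℝ) ^ 2 - (∑ ω ∈ S, sg (ω i)) * (∑ ω' ∈ S, sg (ω' i))) / 2 := by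
      rw [Finset.sum_mul_sum]
      simp_rw [← Finset.sum_div, Finset.sum_sub_distrib]
      simp
      ring
    rw [e3, e2]
    ring
  have hb1 : ∀ i, b i ^ 2 ≤ 1 := by
    intro i
    have h1 : |∑ ω ∈ S, sg (ω i)| ≤ S.card := by
      refine le_trans (Finset.abs_sum_le_sum_abs _ _) ?_
      simp [abs_sg]
    have h2 : |b i| ≤ 1 := by
      simp only [hb]
      rw [abs_div, abs_of_pos hs, div_le_one hs]
      exact h1
    rw [sq_le_one_iff_abs_le_one]
    exact h2
  -- the key average over pairs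
  have hkey : ∀ x ∈ K, ∑ i, |x i| * |y i| * ((1 - b i ^ 2) / 2) ≤ t := by
    intro x hx
    have hone : ∀ ω ∈ S, ∀ ω' ∈ S,
        ∑ i, |x i| * |y i| * (if ω i = ω' i then (0 : ℝ) else 1) ≤ t := by
      intro ω hω ω' hω'
      have hω0 : f ω = c₀ := by
        rw [hS, Finset.mem_filter] at hω; exact hω.2
      have hω'0 : f ω' = c₀ := by
        rw [hS, Finset.mem_filter] at hω'; exact hω'.2
      have h1 := hf ω
      have h2 := hf ω'
      rw [hω0] at h1
      rw [hω'0] at h2
      have h3 := cell_diam hK h1 h2 hx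
      have e : ∑ i, |x i| * |sg (ω i) * y i - sg (ω' i) * y i|
          = 2 * ∑ i, |x i| * |y i| * (if ω i = ω' i then (0 : ℝ) else 1) := by
        rw [Finset.mul_sum]
        apply Finset.sum_congr rfl
        intro i _
        by_cases hi : ω i = ω' i
        · simp [hi]
        · rw [if_neg hi]
          have : |sg (ω i) * y i - sg (ω' i) * y i| = 2 * |y i| := by
            have e4 : sg (ω i) * y i - sg (ω' i) * y i = (sg (ω i) - sg (ω' i)) * y i := by ring
            rw [e4, abs_mul]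
            congr 1
            cases h1 : ω i <;> cases h2 : ω' i <;> simp_all [sg] <;> norm_num
          rw [this]; ring
      rw [e] at h3
      linarith
    have hsum : ∑ ω ∈ S, ∑ ω' ∈ S, ∑ i, |x i| * |y i| * (if ω i = ω' i then (0 : ℝ) else 1)
        ≤ S.card ^ 2 * t := by
      calc _ ≤ ∑ ω ∈ S, ∑ ω' ∈ S, t :=
            Finset.sum_le_sum (fun ω hω => Finset.sum_le_sum (fun ω' hω' => hone ω hω ω' hω'))
        _ = _ := by simp; ring
    have hswap : ∑ ω ∈ S, ∑ ω' ∈ S, ∑ i, |x i| * |y i| * (if ω i = ω' i then (0 : ℝ) else 1)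
        = S.card ^ 2 * ∑ i, |x i| * |y i| * ((1 - b i ^ 2) / 2) := by
      calc _ = ∑ ω ∈ S, ∑ i, ∑ ω' ∈ S, |x i| * |y i| * (if ω i = ω' i then (0 : ℝ) else 1) := by
            apply Finset.sum_congr rfl; intro ω _; rw [Finset.sum_comm]
        _ = ∑ i, ∑ ω ∈ S, ∑ ω' ∈ S, |x i| * |y i| * (if ω i = ω' i then (0 : ℝ) else 1) := by
            rw [Finset.sum_comm]
        _ = ∑ i, |x i| * |y i| * (S.card ^ 2 * ((1 - b i ^ 2) / 2)) := by
            apply Finset.sum_congr rfl; intro i _
            rw [← hpairs i]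
            simp_rw [Finset.mul_sum]
        _ = _ := by
            rw [Finset.mul_sum]
            apply Finset.sum_congr rfl; intro i _; ring
    rw [hswap] at hsum
    have hs2 : (0 : ℝ) < (S.card : ℝ) ^ 2 := by positivity
    exact le_of_mul_le_mul_left hsum hs2
  -- the set G
  refine ⟨Finset.univ.filter fun i => 1 / 2 < b i ^ 2, ?_, ?_⟩
  · set G := Finset.univ.filter fun i => 1 / 2 < b i ^ 2 with hG
    have h1 : (G.card : ℝ) * (1 / 2) ≤ ∑ i ∈ G, b i ^ 2 := by
      rw [← nsmul_eq_mul, ← Finset.sum_const]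
      apply Finset.sum_le_sum
      intro i hi
      rw [hG, Finset.mem_filter] at hi
      exact hi.2.le
    have h2 : ∑ i ∈ G, b i ^ 2 ≤ ∑ i, b i ^ 2 :=
      Finset.sum_le_sum_of_subset_of_nonneg (Finset.subset_univ _) (fun _ _ _ => by positivity)
    linarith
  · intro x hx
    set G := Finset.univ.filter fun i => 1 / 2 < b i ^ 2 with hG
    have h1 := hkey x hx
    have h2 : ∑ i ∈ Gᶜ, |x i| * |y i| * (1 / 4) ≤ ∑ i ∈ Gᶜ, |x i| * |y i| * ((1 - b i ^ 2) / 2) := by
      apply Finset.sum_le_sum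
      intro i hi
      rw [Finset.mem_compl, hG, Finset.mem_filter] at hi
      have : b i ^ 2 ≤ 1 / 2 := by
        by_contra hcon
        rw [not_le] at hcon
        exact hi ⟨Finset.mem_univ _, hcon⟩
      apply mul_le_mul_of_nonneg_left _ (by positivity)
      linarith
    have h3 : ∑ i ∈ Gᶜ, |x i| * |y i| * ((1 - b i ^ 2) / 2)
        ≤ ∑ i, |x i| * |y i| * ((1 - b i ^ 2) / 2) := by
      apply Finset.sum_le_sum_of_subset_of_nonneg (Finset.subset_univ _)
      intro i _ _
      have := hb1 i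
      apply mul_nonneg (by positivity)
      linarith
    rw [← Finset.sum_mul] at h2
    linarith

end Vale.Agent.Lib.P126U
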