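import Vale.Agent.Lib.P126U.Chain

open scoped BigOperators

namespace Vale.Agent.Lib.P126U

/-- Gibbs inequality for finite sums. -/
lemma gibbs_ineq {I : Type*} [Fintype I] (a b : I → ℝ) (ha : ∀ i, 0 < a i) (hb : ∀ i, 0 < b i)
    (h1 : ∑ i, a i = 1) (h2 : ∑ i, b i ≤ 1) :
    ∑ i, a i * Real.log (b i) ≤ ∑ i, a i * Real.log (a i) := by
  have key : ∀ i, a i * Real.log (b i) - a i * Real.log (a i) ≤ b i - a i := by
    intro i
    have h := Real.log_le_sub_one_of_pos (div_pos (hb i) (ha i))
    rw [Real.log_div (hb i).ne' (ha i).ne'] at h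
    have h3 := mul_le_mul_of_nonneg_left h (ha i).le
    have h4 : a i * (b i / a i - 1) = b i - a i := by
      have hai := (ha i).ne'
      field_simp
    rw [h4] at h3
    linarith
  have := Finset.sum_le_sum (fun i (_ : i ∈ Finset.univ) => key i)
  rw [Finset.sum_sub_distrib, Finset.sum_sub_distrib, h1] at this
  linarith

/-- (E) The coding inequality. -/
theorem kl_bound {n : ℕ} {X Y : Type*} [Fintype X] [Fintype Y] [Nonempty X] [Nonempty Y]
    [DecidableEq X]
    (ν : X → Y → ℝ) (hν0 : ∀ x y, 0 < ν x y) (hν1 : ∀ x, ∑ y, ν x y = 1)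
    (cc : X → Fin n → Bool) (s : Y → Fin n → Bool) (H0 θ d M : ℝ)
    (hent : ∀ x, H0 ≤ ∑ y, -(ν x y * Real.log (ν x y))) (hθ0 : 0 ≤ θ)
    (hcov : ∀ x k, cc x k = true → ∑ y, (if s y k = true then 0 else ν x y) ≤ θ)
    (hrankc : ∀ x, ((Finset.univ.filter (fun k => cc x k = true)).card : ℝ) ≤ d)
    (hranks : ∀ y, ((Finset.univ.filter (fun k => s y k = true)).card : ℝ) ≤ d)
    (hfib : ∀ c₀, ((Finset.univ.filter (fun x => cc x = c₀)).card : ℝ) ≤ M) :
    H0 + Real.log (Fintype.card X) ≤ Real.log (Fintype.card Y) + θ * Real.log (Fintype.card X)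
      + d * Real.log 2 + d + Real.log M := by
  classical
  set NX : ℝ := (Fintype.card X : ℝ) with hNXdef
  set NY : ℝ := (Fintype.card Y : ℝ) with hNYdef
  have hNX : 0 < NX := by
    simp only [hNXdef]; exact_mod_cast Fintype.card_pos
  have hNY : 0 < NY := by
    simp only [hNYdef]; exact_mod_cast Fintype.card_pos
  set f : (Fin n → Bool) → ℝ := fun c₀ => ((Finset.univ.filter (fun x => cc x = c₀)).card : ℝ) with hf
  have hfib_sum : ∀ φ : (Fin n → Bool) → ℝ, ∑ x, φ (cc x) = ∑ c₀, f c₀ * φ c₀ := by
    intro φ
    rw [← Finset.sum_fiberwise Finset.univ cc (fun x => φ (cc x))]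
    apply Finset.sum_congr rfl
    intro c₀ _
    have : ∀ x ∈ Finset.univ.filter (fun x => cc x = c₀), φ (cc x) = φ c₀ := by
      intro x hx
      rw [(Finset.mem_filter.mp hx).2]
    rw [Finset.sum_congr rfl this, Finset.sum_const, nsmul_eq_mul]
  have hf1 : ∀ x, 1 ≤ f (cc x) := by
    intro x
    simp only [hf]
    have : 0 < (Finset.univ.filter (fun x' => cc x' = cc x)).card :=
      Finset.card_pos.mpr ⟨x, by simp⟩
    exact_mod_cast this
  have hf0 : ∀ c₀, 0 ≤ f c₀ := fun c₀ => by simp only [hf]; positivity
  have hfM : ∀ c₀, f c₀ ≤ M := hfib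
  have hsumf : ∑ c₀, f c₀ = NX := by
    have := hfib_sum (fun _ => 1)
    simp only [mul_one, Finset.sum_const, Finset.card_univ, nsmul_eq_mul] at this
    rw [← this]
  set R : (Fin n → Bool) → ℝ := fun c₀ => f c₀ / NX with hR
  have hR0 : ∀ c, 0 ≤ R c := fun c => div_nonneg (hf0 c) hNX.le
  have hR1 : ∑ c, R c = 1 := by
    simp only [hR]
    rw [← Finset.sum_div, hsumf, div_self hNX.ne']
  obtain ⟨r, hr1, hr2, hr3, hr4⟩ := chain_decomp n R hR0 hR1
  have hRpos : ∀ x, 0 < R (cc x) := fun x =>
    div_pos (lt_of_lt_of_le one_pos (hf1 x)) hNX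
  have hrpos : ∀ x k, 0 < r k (cc x) := fun x k => (hr1 _ (hRpos x) k).1
  have hrle : ∀ x k, r k (cc x) ≤ 1 := fun x k => (hr1 _ (hRpos x) k).2
  -- the code
  set Q : Y → (Fin n → Bool) → ℝ := fun y c => ∏ k, (if s y k = true then (1 / 2 : ℝ) else r k c) with hQ
  have hQpos : ∀ y x, 0 < Q y (cc x) := by
    intro y x
    apply Finset.prod_pos
    intro k _
    split_ifs
    · norm_num
    · exact hrpos x k
  -- the joint law
  set a : X → Y → ℝ := fun x y => ν x y / NX with ha
  have hapos : ∀ x y, 0 < a x y := fun x y => div_pos (hν0 x y) hNX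
  have hax : ∀ x, ∑ y, a x y = 1 / NX := by
    intro x
    simp only [ha]
    rw [← Finset.sum_div, hν1]
  set π₂ : Y → ℝ := fun y => ∑ x, a x y with hπ
  have hπpos : ∀ y, 0 < π₂ y := fun y =>
    Finset.sum_pos (fun x _ => hapos x y) Finset.univ_nonempty
  have hπ1 : ∑ y, π₂ y = 1 := by
    simp only [hπ]
    rw [Finset.sum_comm]
    simp only [hax]
    simp only [Finset.sum_const, Finset.card_univ, nsmul_eq_mul]
    simp only [hNXdef]
    field_simp
  set b : X → Y → ℝ := fun x y => π₂ y * Q y (cc x) / f (cc x) with hb
  have hbpos : ∀ x y, 0 < b x y := fun x y =>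
    div_pos (mul_pos (hπpos y) (hQpos y x)) (lt_of_lt_of_le one_pos (hf1 x))
  -- total mass of `b`
  have hbsum : ∑ x, ∑ y, b x y ≤ 1 := by
    rw [Finset.sum_comm]
    have hinner : ∀ y, ∑ x, b x y ≤ π₂ y := by
      intro y
      have h1 : ∑ x, b x y = π₂ y * ∑ x, (Q y (cc x) / f (cc x)) := by
        rw [Finset.mul_sum]
        apply Finset.sum_congr rfl
        intro x _
        simp only [hb]
        ring
      rw [h1]
      have h2 : ∑ x, (Q y (cc x) / f (cc x)) ≤ 1 := by
        rw [hfib_sum (fun c => Q y c / f c)]
        refine le_trans (le_of_eq ?_) (hr4 (s y))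
        apply Finset.sum_congr rfl
        intro c₀ _
        by_cases hc : f c₀ = 0
        · have : ¬ 0 < R c₀ := by
            simp [hR, hc]
          simp [hc, this]
        · have hpos : 0 < f c₀ := lt_of_le_of_ne (hf0 c₀) (Ne.symm hc)
          have : 0 < R c₀ := div_pos hpos hNX
          rw [if_pos this]
          simp only [hQ]
          field_simp
      have := mul_le_mul_of_nonneg_left h2 (hπpos y).le
      linarith
    calc ∑ y, ∑ x, b x y ≤ ∑ y, π₂ y := Finset.sum_le_sum (fun y _ => hinner y)
      _ = 1 := hπ1
  -- Gibbs on the product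
  have hg := gibbs_ineq (I := X × Y) (fun p => a p.1 p.2) (fun p => b p.1 p.2)
    (fun p => hapos p.1 p.2) (fun p => hbpos p.1 p.2)
    (by
      rw [Fintype.sum_prod_type]
      simp only [hax, Finset.sum_const, Finset.card_univ, nsmul_eq_mul]
      simp only [hNXdef]
      field_simp)
    (by rw [Fintype.sum_prod_type]; exact hbsum)
  rw [Fintype.sum_prod_type, Fintype.sum_prod_type] at hg
  simp only at hg
  -- the left side: entropy of a
  have hT1 : ∑ x, ∑ y, a x y * Real.log (a x y) ≤ -H0 - Real.log NX := by
    have h1 : ∀ x, ∑ y, a x y * Real.log (a x y) ≤ (-H0 - Real.log NX) / NX := by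
      intro x
      have h2 : ∑ y, a x y * Real.log (a x y) =
          (∑ y, ν x y * Real.log (ν x y) - Real.log NX) / NX := by
        have : ∀ y, a x y * Real.log (a x y) =
            (ν x y * Real.log (ν x y) - ν x y * Real.log NX) / NX := by
          intro y
          simp only [ha]
          rw [Real.log_div (hν0 x y).ne' hNX.ne']
          ring
        simp only [this]
        rw [← Finset.sum_div, Finset.sum_sub_distrib, ← Finset.sum_mul, hν1, one_mul]
      rw [h2]
      apply div_le_div_of_nonneg_right _ hNX.le
      have h3 := hent x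
      have h4 : ∑ y, -(ν x y * Real.log (ν x y)) = -∑ y, ν x y * Real.log (ν x y) := by
        rw [Finset.sum_neg_distrib]
      rw [h4] at h3
      linarith
    calc ∑ x, ∑ y, a x y * Real.log (a x y)
        ≤ ∑ _x : X, (-H0 - Real.log NX) / NX := Finset.sum_le_sum (fun x _ => h1 x)
      _ = -H0 - Real.log NX := by
        simp only [Finset.sum_const, Finset.card_univ, nsmul_eq_mul]
        simp only [hNXdef]
        field_simp
  -- entropy of π₂
  have hT2 : - Real.log NY ≤ ∑ y, π₂ y * Real.log (π₂ y) := by
    have hg2 := gibbs_ineq (I := Y) π₂ (fun _ => 1 / NY) hπpos (fun _ => by positivity) hπ1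
      (by
        simp only [Finset.sum_const, Finset.card_univ, nsmul_eq_mul]
        simp only [hNYdef]
        apply le_of_eq
        field_simp)
    refine le_trans (le_of_eq ?_) hg2
    rw [← Finset.sum_mul, hπ1]
    rw [Real.log_div one_ne_zero hNY.ne', Real.log_one]
    ring
  -- cost of a code word
  have hlogQ : ∀ y x, Real.log (Q y (cc x)) =
      ∑ k, (if s y k = true then -Real.log 2 else Real.log (r k (cc x))) := by
    intro y x
    simp only [hQ]
    rw [Real.log_prod]
    · apply Finset.sum_congr rfl
      intro k _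
      split_ifs
      · rw [one_div, Real.log_inv]
      · rfl
    · intro k _
      split_ifs
      · norm_num
      · exact (hrpos x k).ne'
  -- per-`x` bound
  set A : (Fin n → Bool) → ℝ := fun c => ∑ k, (if c k = true then 0 else -Real.log (r k c)) with hA
  have hlog2 : 0 ≤ Real.log 2 := Real.log_nonneg (by norm_num)
  have hper : ∀ x, -(d * Real.log 2) - θ * Real.log NX - A (cc x) ≤
      ∑ y, ν x y * Real.log (Q y (cc x)) := by
    intro x
    set L : Fin n → ℝ := fun k => -Real.log (r k (cc x)) with hL
    have hL0 : ∀ k, 0 ≤ L k := fun k => by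
      simp only [hL]
      have := Real.log_nonpos (hrpos x k).le (hrle x k)
      linarith
    set pk : Fin n → ℝ := fun k => ∑ y, (if s y k = true then 0 else ν x y) with hpk
    have hpk1 : ∀ k, pk k ≤ 1 := by
      intro k
      simp only [hpk]
      calc ∑ y, (if s y k = true then 0 else ν x y) ≤ ∑ y, ν x y := by
            apply Finset.sum_le_sum
            intro y _
            split_ifs
            · exact (hν0 x y).le
            · exact le_rfl
        _ = 1 := hν1 x
    have hsplit : ∑ y, ν x y * Real.log (Q y (cc x)) =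
        -(Real.log 2 * ∑ y, ν x y * ((Finset.univ.filter (fun k => s y k = true)).card : ℝ))
          - ∑ k, L k * pk k := by
      have h1 : ∀ y, ν x y * Real.log (Q y (cc x)) =
          -(Real.log 2 * (ν x y * ((Finset.univ.filter (fun k => s y k = true)).card : ℝ)))
            - ∑ k, L k * (if s y k = true then 0 else ν x y) := by
        intro y
        rw [hlogQ, Finset.mul_sum]
        have hc : ((Finset.univ.filter (fun k => s y k = true)).card : ℝ) =
            ∑ k, (if s y k = true then (1 : ℝ) else 0) := by
          simp only [Finset.card_filter]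
          push_cast
          rfl
        rw [hc, Finset.mul_sum, Finset.mul_sum, ← Finset.sum_neg_distrib,
          ← Finset.sum_sub_distrib]
        apply Finset.sum_congr rfl
        intro k _
        simp only [hL]
        split_ifs <;> ring
      simp only [h1]
      rw [Finset.sum_sub_distrib, Finset.sum_neg_distrib, ← Finset.mul_sum]
      congr 1
      simp only [hpk, Finset.mul_sum]
      rw [Finset.sum_comm]
    have hrank : ∑ y, ν x y * ((Finset.univ.filter (fun k => s y k = true)).card : ℝ) ≤ d := by
      calc ∑ y, ν x y * ((Finset.univ.filter (fun k => s y k = true)).card : ℝ)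
          ≤ ∑ y, ν x y * d := Finset.sum_le_sum
            (fun y _ => mul_le_mul_of_nonneg_left (hranks y) (hν0 x y).le)
        _ = d := by rw [← Finset.sum_mul, hν1, one_mul]
    have hterm : ∀ k, L k * pk k ≤ θ * L k + (if cc x k = true then 0 else L k) := by
      intro k
      by_cases hk : cc x k = true
      · rw [if_pos hk, add_zero, mul_comm θ]
        exact mul_le_mul_of_nonneg_left (hcov x k hk) (hL0 k)
      · rw [if_neg hk]
        have h2 : L k * pk k ≤ L k * 1 := mul_le_mul_of_nonneg_left (hpk1 k) (hL0 k)
        have h3 : 0 ≤ θ * L k := mul_nonneg hθ0 (hL0 k)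
        linarith
    have hsumL : ∑ k, L k ≤ Real.log NX := by
      have h1 : ∑ k, L k = -Real.log (R (cc x)) := by
        simp only [hL]
        rw [Finset.sum_neg_distrib, ← Real.log_prod, hr2 _ (hRpos x)]
        intro k _
        exact (hrpos x k).ne'
      rw [h1]
      simp only [hR]
      rw [Real.log_div (lt_of_lt_of_le one_pos (hf1 x)).ne' hNX.ne']
      have := Real.log_nonneg (hf1 x)
      linarith
    have hsumterm : ∑ k, L k * pk k ≤ θ * Real.log NX + A (cc x) := by
      calc ∑ k, L k * pk k ≤ ∑ k, (θ * L k + (if cc x k = true then 0 else L k)) :=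
            Finset.sum_le_sum (fun k _ => hterm k)
        _ = θ * ∑ k, L k + A (cc x) := by
            rw [Finset.sum_add_distrib, Finset.mul_sum]
        _ ≤ θ * Real.log NX + A (cc x) := by
            have := mul_le_mul_of_nonneg_left hsumL hθ0
            linarith
    rw [hsplit]
    have h5 := mul_le_mul_of_nonneg_left hrank hlog2
    rw [mul_comm d] at *
    linarith
  -- average of `A`
  have hAavg : ∑ x, A (cc x) ≤ d * NX := by
    rw [hfib_sum A]
    have h1 : ∑ c₀, f c₀ * A c₀ = NX * ∑ c₀, R c₀ * A c₀ := by
      rw [Finset.mul_sum]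
      apply Finset.sum_congr rfl
      intro c₀ _
      simp only [hR]
      field_simp
    rw [h1]
    have h2 : ∑ c₀, R c₀ * A c₀ ≤ d := by
      refine le_trans hr3 ?_
      have h3 : ∑ c₀, R c₀ * ((Finset.univ.filter (fun k => c₀ k = true)).card : ℝ) =
          (∑ x, ((Finset.univ.filter (fun k => cc x k = true)).card : ℝ)) / NX := by
        rw [hfib_sum (fun c₀ => ((Finset.univ.filter (fun k => c₀ k = true)).card : ℝ)),
          Finset.sum_div]
        apply Finset.sum_congr rfl
        intro c₀ _
        simp only [hR]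
        ring
      rw [h3]
      rw [div_le_iff₀ hNX]
      calc ∑ x, ((Finset.univ.filter (fun k => cc x k = true)).card : ℝ)
          ≤ ∑ _x : X, d := Finset.sum_le_sum (fun x _ => hrankc x)
        _ = d * NX := by
          simp only [Finset.sum_const, Finset.card_univ, nsmul_eq_mul]
          simp only [hNXdef]
          ring
    have := mul_le_mul_of_nonneg_left h2 hNX.le
    linarith
  -- assembling the lower bound on the left of Gibbs
  have hM : 0 < M := lt_of_lt_of_le (by
    have := hf1 (Classical.arbitrary X)
    linarith) (hfM (cc (Classical.arbitrary X)))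
  have hlogb : ∀ x y, Real.log (b x y) =
      Real.log (π₂ y) + Real.log (Q y (cc x)) - Real.log (f (cc x)) := by
    intro x y
    simp only [hb]
    rw [Real.log_div (mul_pos (hπpos y) (hQpos y x)).ne' (lt_of_lt_of_le one_pos (hf1 x)).ne',
      Real.log_mul (hπpos y).ne' (hQpos y x).ne']
  have hlower : - Real.log NY - (d * Real.log 2 + θ * Real.log NX + d) - Real.log M ≤
      ∑ x, ∑ y, a x y * Real.log (b x y) := by
    have h1 : ∑ x, ∑ y, a x y * Real.log (b x y) =
        ∑ y, π₂ y * Real.log (π₂ y) +
        (∑ x, ∑ y, ν x y * Real.log (Q y (cc x))) / NX -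
        ∑ x, Real.log (f (cc x)) / NX := by
      have h2 : ∀ x y, a x y * Real.log (b x y) =
          a x y * Real.log (π₂ y) + (ν x y * Real.log (Q y (cc x))) / NX
            - a x y * Real.log (f (cc x)) := by
        intro x y
        rw [hlogb]
        simp only [ha]
        ring
      simp only [h2]
      simp only [Finset.sum_sub_distrib, Finset.sum_add_distrib]
      congr 1
      · congr 1
        · simp only [hπ]
          rw [Finset.sum_comm]
          apply Finset.sum_congr rfl
          intro y _
          rw [Finset.sum_mul]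
        · rw [Finset.sum_div]
          apply Finset.sum_congr rfl
          intro x _
          rw [Finset.sum_div]
      · apply Finset.sum_congr rfl
        intro x _
        rw [← Finset.sum_mul, hax]
        ring
    rw [h1]
    have h3 : (∑ x, ∑ y, ν x y * Real.log (Q y (cc x))) / NX ≥
        -(d * Real.log 2) - θ * Real.log NX - d := by
      rw [ge_iff_le, le_div_iff₀ hNX]
      calc (-(d * Real.log 2) - θ * Real.log NX - d) * NX
          = ∑ _x : X, (-(d * Real.log 2) - θ * Real.log NX) - d * NX := by
            simp only [Finset.sum_const, Finset.card_univ, nsmul_eq_mul]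
            simp only [hNXdef]
            ring
        _ ≤ ∑ _x : X, (-(d * Real.log 2) - θ * Real.log NX) - ∑ x, A (cc x) := by
            linarith
        _ = ∑ x, (-(d * Real.log 2) - θ * Real.log NX - A (cc x)) := by
            rw [Finset.sum_sub_distrib (s := Finset.univ)
              (f := fun _ => -(d * Real.log 2) - θ * Real.log NX) (g := fun x => A (cc x))]
        _ ≤ _ := Finset.sum_le_sum (fun x _ => hper x)
    have h4 : ∑ x, Real.log (f (cc x)) / NX ≤ Real.log M := by
      calc ∑ x, Real.log (f (cc x)) / NX ≤ ∑ _x : X, Real.log M / NX := by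
            apply Finset.sum_le_sum
            intro x _
            apply div_le_div_of_nonneg_right _ hNX.le
            exact Real.log_le_log (lt_of_lt_of_le one_pos (hf1 x)) (hfM _)
        _ = Real.log M := by
            simp only [Finset.sum_const, Finset.card_univ, nsmul_eq_mul]
            simp only [hNXdef]
            field_simp
    linarith
  linarith

end Vale.Agent.Lib.P126U
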