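import Vale.Agent.Lib.P126U.Defs

open scoped BigOperators

namespace Vale.Agent.Lib.P126U

variable {n : ℕ} {K L : Set (Fin n → ℝ)}

namespace LowDimAux

/-- First order condition for a maximiser of a product. -/
lemma fo_prod {ι : Type*} [DecidableEq ι] (C : Finset ι) {l x : ι → ℝ} (hl : ∀ i ∈ C, 0 < l i)
    (hmax : ∀ ε : ℝ, 0 < ε → ε < 1 → ∏ i ∈ C, ((1 - ε) * l i + ε * x i) ≤ ∏ i ∈ C, l i) :
    ∑ i ∈ C, x i / l i ≤ C.card := by
  by_contra hcon
  have hcon' : (C.card : ℝ) < ∑ i ∈ C, x i / l i := not_le.mp hcon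
  set f : ℝ → ℝ := fun ε => ∏ i ∈ C, (1 + ε * (x i / l i - 1)) with hf
  have hP : 0 < ∏ i ∈ C, l i := Finset.prod_pos hl
  have hfle : ∀ ε : ℝ, 0 < ε → ε < 1 → f ε ≤ 1 := by
    intro ε h0 h1
    have h2 := hmax ε h0 h1
    have h3 : ∏ i ∈ C, ((1 - ε) * l i + ε * x i) = (∏ i ∈ C, l i) * f ε := by
      simp only [hf]
      rw [← Finset.prod_mul_distrib]
      refine Finset.prod_congr rfl fun i hi => ?_
      have := (hl i hi).ne'
      field_simp
      ring
    rw [h3] at h2
    nlinarith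
  have hd : HasDerivAt f (∑ i ∈ C, (x i / l i - 1)) 0 := by
    have h1 : ∀ i ∈ C, HasDerivAt (fun ε : ℝ => 1 + ε * (x i / l i - 1)) (x i / l i - 1) 0 := by
      intro i _
      have := ((hasDerivAt_id (0 : ℝ)).mul_const (x i / l i - 1)).const_add 1
      simpa using this
    have h2 := HasDerivAt.fun_finsetProd h1
    refine h2.congr_deriv ?_
    refine Finset.sum_congr rfl fun i _ => ?_
    simp
  have hpos : 0 < ∑ i ∈ C, (x i / l i - 1) := by
    rw [Finset.sum_sub_distrib]
    simp only [Finset.sum_const, nsmul_eq_mul, mul_one]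
    linarith
  have ht := hd.tendsto_slope_zero_right
  have hev1 : ∀ᶠ h in nhdsWithin (0 : ℝ) (Set.Ioi 0), 0 < h⁻¹ • (f (0 + h) - f 0) :=
    ht.eventually (lt_mem_nhds hpos)
  have hev2 : ∀ᶠ h in nhdsWithin (0 : ℝ) (Set.Ioi 0), h ∈ Set.Ioo (0 : ℝ) 1 :=
    Ioo_mem_nhdsGT (by norm_num)
  obtain ⟨h, h1, h2⟩ := (hev1.and hev2).exists
  have hf0 : f 0 = 1 := by simp [hf]
  rw [zero_add, hf0, smul_eq_mul] at h1
  have h3 := hfle h h2.1 h2.2
  have h4 : 0 < h⁻¹ := inv_pos.mpr h2.1
  nlinarith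

/-- A one dimensional geometric bound. -/
lemma sum_exp_abs_le {a : ℝ} (ha : 0 < a) (k : ℕ) :
    ∑ j ∈ Finset.Icc (-(k : ℤ)) k, Real.exp (-(|(j : ℝ)| * a)) ≤
      1 + 2 / a * (1 - Real.exp (-(k * a))) := by
  induction k with
  | zero => simp
  | succ k ih =>
    have hset : Finset.Icc (-((k + 1 : ℕ) : ℤ)) ((k + 1 : ℕ) : ℤ) =
        insert (((k + 1 : ℕ) : ℤ)) (insert (-((k + 1 : ℕ) : ℤ))
          (Finset.Icc (-(k : ℤ)) k)) := by
      ext j
      simp only [Finset.mem_Icc, Finset.mem_insert]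
      push_cast
      omega
    have hn1 : ((k + 1 : ℕ) : ℤ) ∉ insert (-((k + 1 : ℕ) : ℤ)) (Finset.Icc (-(k : ℤ)) k) := by
      simp only [Finset.mem_insert, Finset.mem_Icc]
      push_cast
      omega
    have hn2 : (-((k + 1 : ℕ) : ℤ)) ∉ Finset.Icc (-(k : ℤ)) (k : ℤ) := by
      simp only [Finset.mem_Icc]
      push_cast
      omega
    rw [hset, Finset.sum_insert hn1, Finset.sum_insert hn2]
    have e1 : |((((k + 1 : ℕ) : ℤ) : ℝ))| = (k : ℝ) + 1 := by
      push_cast
      exact abs_of_nonneg (by positivity)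
    have e2 : |((-((k + 1 : ℕ) : ℤ) : ℤ) : ℝ)| = (k : ℝ) + 1 := by
      push_cast
      rw [abs_neg]
      exact abs_of_nonneg (by positivity)
    rw [e1, e2]
    set r := Real.exp (-((k + 1 : ℕ) * a)) with hr
    have e3 : Real.exp (-(((k : ℝ) + 1) * a)) = r := by
      rw [hr]
      push_cast
      rfl
    rw [e3]
    have e4 : Real.exp (-(k * a)) = r * Real.exp a := by
      rw [hr, ← Real.exp_add]
      congr 1
      push_cast
      ring
    rw [e4] at ih
    have hr0 : 0 < r := Real.exp_pos _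
    have h5 : a + 1 ≤ Real.exp a := Real.add_one_le_exp a
    have h6 : 2 / a * (r * (Real.exp a - 1)) ≥ 2 * r := by
      have : 2 / a * (r * a) ≤ 2 / a * (r * (Real.exp a - 1)) := by
        apply mul_le_mul_of_nonneg_left _ (by positivity)
        apply mul_le_mul_of_nonneg_left _ hr0.le
        linarith
      have h7 : 2 / a * (r * a) = 2 * r := by field_simp
      linarith
    have h8 : 2 / a * (1 - r) = 2 / a * (1 - r * Real.exp a) + 2 / a * (r * (Real.exp a - 1)) := by
      ring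
    linarith

lemma sum_exp_abs_le' {a : ℝ} (ha : 0 < a) (k : ℕ) :
    ∑ j ∈ Finset.Icc (-(k : ℤ)) k, Real.exp (-(|(j : ℝ)| * a)) ≤ 1 + 2 / a := by
  refine (sum_exp_abs_le ha k).trans ?_
  have h1 : 0 < Real.exp (-(k * a)) := Real.exp_pos _
  have h2 : 0 < 2 / a := by positivity
  nlinarith

/-- Counting lattice points by an exponential moment. -/
lemma lattice_count (C : Finset (Fin n)) {a : Fin n → ℝ} (ha : ∀ i ∈ C, 0 < a i) {M : ℝ}
    (A : Finset (Fin n → ℤ)) (h0 : ∀ k ∈ A, ∀ i, i ∉ C → k i = 0)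
    (hM : ∀ k ∈ A, ∑ i ∈ C, |(k i : ℝ)| * a i ≤ M) :
    (A.card : ℝ) ≤ Real.exp M * ∏ i ∈ C, (1 + 2 / a i) := by
  classical
  set B : ℕ := ∑ k ∈ A, ∑ i, (k i).natAbs with hB
  have hbd : ∀ k ∈ A, ∀ i, (k i).natAbs ≤ B := by
    intro k hk i
    calc (k i).natAbs ≤ ∑ i, (k i).natAbs :=
          Finset.single_le_sum (f := fun i => (k i).natAbs) (fun _ _ => Nat.zero_le _)
            (Finset.mem_univ i)
      _ ≤ B := Finset.single_le_sum (f := fun k : Fin n → ℤ => ∑ i, (k i).natAbs)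
            (fun _ _ => Nat.zero_le _) hk
  set t : ∀ i : Fin n, Finset ℤ := fun i => if i ∈ C then Finset.Icc (-(B : ℤ)) B else {0} with ht
  set F : ∀ i : Fin n, ℤ → ℝ := fun i j =>
    if i ∈ C then Real.exp (-(|(j : ℝ)| * a i)) else 1 with hF
  have hsub : A ⊆ Fintype.piFinset t := by
    intro k hk
    rw [Fintype.mem_piFinset]
    intro i
    simp only [ht]
    split_ifs with hi
    · have := hbd k hk i
      rw [Finset.mem_Icc]
      omega
    · simpa using h0 k hk i hi
  have hprodF : ∀ k : Fin n → ℤ, ∏ i, F i (k i) = Real.exp (-∑ i ∈ C, |(k i : ℝ)| * a i) := by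
    intro k
    simp only [hF]
    rw [Finset.prod_ite_mem, Finset.univ_inter, ← Real.exp_sum, Finset.sum_neg_distrib]
  have h1 : ∀ k ∈ A, (1 : ℝ) ≤ Real.exp M * ∏ i, F i (k i) := by
    intro k hk
    rw [hprodF, ← Real.exp_add]
    apply Real.one_le_exp
    linarith [hM k hk]
  have hFnn : ∀ i j, 0 ≤ F i j := by
    intro i j
    simp only [hF]
    split_ifs <;> positivity
  calc (A.card : ℝ) = ∑ k ∈ A, (1 : ℝ) := by simp
    _ ≤ ∑ k ∈ A, Real.exp M * ∏ i, F i (k i) := Finset.sum_le_sum h1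
    _ = Real.exp M * ∑ k ∈ A, ∏ i, F i (k i) := by rw [Finset.mul_sum]
    _ ≤ Real.exp M * ∑ k ∈ Fintype.piFinset t, ∏ i, F i (k i) := by
        apply mul_le_mul_of_nonneg_left _ (Real.exp_pos _).le
        exact Finset.sum_le_sum_of_subset_of_nonneg hsub
          (fun k _ _ => Finset.prod_nonneg fun i _ => hFnn i _)
    _ = Real.exp M * ∏ i, ∑ j ∈ t i, F i j := by rw [Finset.prod_univ_sum]
    _ ≤ Real.exp M * ∏ i ∈ C, (1 + 2 / a i) := by
        apply mul_le_mul_of_nonneg_left _ (Real.exp_pos _).le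
        have h2 : ∏ i ∈ C, (1 + 2 / a i) = ∏ i, if i ∈ C then (1 + 2 / a i) else 1 := by
          rw [Finset.prod_ite_mem, Finset.univ_inter]
        rw [h2]
        refine Finset.prod_le_prod (fun i _ => Finset.sum_nonneg fun j _ => hFnn i j) fun i _ => ?_
        simp only [ht, hF]
        split_ifs with hi
        · exact sum_exp_abs_le' (ha i hi) B
        · simp

/-- Maximiser of a product on a compact convex set, with its first order condition. -/
lemma exists_max_prod (C : Finset (Fin n)) {S : Set (Fin n → ℝ)} (hcomp : IsCompact S)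
    (hconv : Convex ℝ S) (hpos : ∃ p ∈ S, ∀ i ∈ C, 0 < p i) (hnn : ∀ x ∈ S, ∀ i, 0 ≤ x i) :
    ∃ l ∈ S, (∀ i ∈ C, 0 < l i) ∧ ∀ x ∈ S, ∑ i ∈ C, x i / l i ≤ C.card := by
  obtain ⟨p, hpS, hp⟩ := hpos
  have hcont : ContinuousOn (fun x : Fin n → ℝ => ∏ i ∈ C, x i) S := by
    apply Continuous.continuousOn
    fun_prop
  obtain ⟨l, hlS, hl⟩ := hcomp.exists_isMaxOn ⟨p, hpS⟩ hcont
  have hmax : ∀ x ∈ S, ∏ i ∈ C, x i ≤ ∏ i ∈ C, l i := fun x hx => hl hx
  have hP : 0 < ∏ i ∈ C, l i := lt_of_lt_of_le (Finset.prod_pos hp) (hmax p hpS)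
  have hlpos : ∀ i ∈ C, 0 < l i := by
    intro i hi
    refine lt_of_le_of_ne (hnn l hlS i) ?_
    intro h0
    have : ∏ i ∈ C, l i = 0 := Finset.prod_eq_zero hi h0.symm
    linarith
  refine ⟨l, hlS, hlpos, fun x hx => fo_prod C hlpos fun ε h0 h1 => ?_⟩
  have hmem : (fun i => (1 - ε) * l i + ε * x i) ∈ S := by
    have := hconv hlS hx (by linarith : (0 : ℝ) ≤ 1 - ε) h0.le (by ring)
    convert this using 1
    funext i
    simp
  exact hmax _ hmem

lemma isClosed_supp (C : Finset (Fin n)) : IsClosed {x : Fin n → ℝ | ∀ i, i ∉ C → x i = 0} := by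
  simp only [Set.ofPred_forall]
  exact isClosed_iInter fun i => isClosed_iInter fun _ =>
    isClosed_eq (continuous_apply i) continuous_const

lemma isClosed_nn : IsClosed {x : Fin n → ℝ | ∀ i, 0 ≤ x i} := by
  simp only [Set.ofPred_forall]
  exact isClosed_iInter fun i => isClosed_le continuous_const (continuous_apply i)

lemma isClosed_pair_le (K : Set (Fin n → ℝ)) (t : ℝ) :
    IsClosed {y : Fin n → ℝ | ∀ x ∈ K, ∑ i, x i * y i ≤ t} := by
  simp only [Set.ofPred_forall]
  refine isClosed_iInter fun x => isClosed_iInter fun _ => ?_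
  exact isClosed_le (by fun_prop) continuous_const

lemma sum_eq_sum_C {C : Finset (Fin n)} {f : Fin n → ℝ} (h : ∀ i, i ∉ C → f i = 0) :
    ∑ i, f i = ∑ i ∈ C, f i :=
  (Finset.sum_subset (Finset.subset_univ C) fun i _ hi => h i hi).symm

/-- The two extremal points. -/
lemma exists_l (hL : SBody L) (C : Finset (Fin n)) :
    ∃ l ∈ L, (∀ i, 0 ≤ l i) ∧ (∀ i, i ∉ C → l i = 0) ∧ (∀ i ∈ C, 0 < l i) ∧
      ∀ x ∈ L, ∑ i ∈ C, |x i| / l i ≤ C.card := by
  classical
  set S : Set (Fin n → ℝ) := {x | x ∈ L ∧ (∀ i, 0 ≤ x i) ∧ ∀ i, i ∉ C → x i = 0} with hS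
  have hcl : IsClosed S := by
    have : S = L ∩ ({x | ∀ i, 0 ≤ x i} ∩ {x | ∀ i, i ∉ C → x i = 0}) := rfl
    rw [this]
    exact hL.closed.inter (isClosed_nn.inter (isClosed_supp C))
  obtain ⟨R, hR, hRb⟩ := hL.bdd
  have hcomp : IsCompact S := by
    refine (isCompact_univ_pi (fun _ : Fin n => isCompact_Icc (a := -R) (b := R))).of_isClosed_subset
      hcl ?_
    intro x hx i _
    exact abs_le.mp (hRb x hx.1 i)
  have hconv : Convex ℝ S := by
    intro x hx y hy a b ha hb hab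
    refine ⟨hL.convex hx.1 hy.1 ha hb hab, fun i => ?_, fun i hi => ?_⟩
    · have h1 := hx.2.1 i
      have h2 := hy.2.1 i
      simp only [Pi.add_apply, Pi.smul_apply, smul_eq_mul]
      positivity
    · simp [hx.2.2 i hi, hy.2.2 i hi]
  obtain ⟨δ, hδ, hδL⟩ := hL.nbhd
  have hpos : ∃ p ∈ S, ∀ i ∈ C, 0 < p i := by
    refine ⟨fun i => if i ∈ C then δ else 0, ⟨hδL _ fun i => ?_, fun i => ?_, fun i hi => ?_⟩,
      fun i hi => ?_⟩
    · split_ifs
      · rw [abs_of_pos hδ]
      · simpa using hδ.le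
    · simp only
      split_ifs
      · exact hδ.le
      · exact le_rfl
    · simp [hi]
    · simp [hi, hδ]
  obtain ⟨l, hlS, hl, hfo⟩ := exists_max_prod C hcomp hconv hpos (fun x hx => hx.2.1)
  refine ⟨l, hlS.1, hlS.2.1, hlS.2.2, hl, fun x hx => ?_⟩
  have hx' : (fun i => if i ∈ C then |x i| else 0) ∈ S := by
    refine ⟨hL.solid x hx _ fun i => ?_, fun i => ?_, fun i hi => ?_⟩
    · split_ifs
      · simp
      · simp
    · simp only
      split_ifs
      · exact abs_nonneg _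
      · exact le_rfl
    · simp [hi]
  have := hfo _ hx'
  refine le_trans (le_of_eq ?_) this
  refine Finset.sum_congr rfl fun i hi => ?_
  simp [hi]

lemma exists_ys (hK : SBody K) (hL : SBody L) {t : ℝ} (ht0 : 0 < t) (ht1 : t ≤ 1)
    (C : Finset (Fin n)) (hC : C.Nonempty) :
    ∃ ys ∈ polar L, (∀ x ∈ K, ∑ i, x i * ys i ≤ t) ∧ (∀ i, 0 ≤ ys i) ∧ (∀ i, i ∉ C → ys i = 0) ∧
      (∀ i ∈ C, 0 < ys i) ∧
      ∀ y ∈ polar L, (∀ x ∈ K, ∑ i, x i * y i ≤ t) → (∀ i, 0 ≤ y i) → (∀ i, i ∉ C → y i = 0) →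
        ∑ i ∈ C, y i / ys i ≤ C.card := by
  classical
  set S : Set (Fin n → ℝ) := {y | y ∈ polar L ∧ (∀ x ∈ K, ∑ i, x i * y i ≤ t) ∧ (∀ i, 0 ≤ y i) ∧
    ∀ i, i ∉ C → y i = 0} with hS
  have hcl : IsClosed S := by
    have : S = polar L ∩ ({y | ∀ x ∈ K, ∑ i, x i * y i ≤ t} ∩
        ({x | ∀ i, 0 ≤ x i} ∩ {x | ∀ i, i ∉ C → x i = 0})) := rfl
    rw [this]
    exact (isClosed_pair_le L 1).inter ((isClosed_pair_le K t).inter
      (isClosed_nn.inter (isClosed_supp C)))
  obtain ⟨δ, hδ, hδL⟩ := hL.nbhd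
  have hbd : ∀ y ∈ polar L, ∀ i, y i ≤ 1 / δ := by
    intro y hy i
    have h1 : (fun j => if j = i then δ else 0) ∈ L := hδL _ fun j => by
      split_ifs
      · rw [abs_of_pos hδ]
      · simpa using hδ.le
    have h2 := hy _ h1
    simp only [ite_mul, zero_mul, Finset.sum_ite_eq', Finset.mem_univ, if_true] at h2
    rw [le_div_iff₀ hδ]
    linarith
  have hcomp : IsCompact S := by
    refine (isCompact_univ_pi
      (fun _ : Fin n => isCompact_Icc (a := (0 : ℝ)) (b := 1 / δ))).of_isClosed_subset hcl ?_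
    intro y hy i _
    exact ⟨hy.2.2.1 i, hbd y hy.1 i⟩
  have hconv : Convex ℝ S := by
    intro x hx y hy a b ha hb hab
    have hlin : ∀ w : Fin n → ℝ, ∑ i, w i * (a • x + b • y) i =
        a * ∑ i, w i * x i + b * ∑ i, w i * y i := by
      intro w
      rw [Finset.mul_sum, Finset.mul_sum, ← Finset.sum_add_distrib]
      refine Finset.sum_congr rfl fun i _ => ?_
      simp only [Pi.add_apply, Pi.smul_apply, smul_eq_mul]
      ring
    refine ⟨fun w hw => ?_, fun w hw => ?_, fun i => ?_, fun i hi => ?_⟩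
    · rw [hlin]
      have h1 := hx.1 w hw
      have h2 := hy.1 w hw
      nlinarith
    · rw [hlin]
      have h1 := hx.2.1 w hw
      have h2 := hy.2.1 w hw
      have h3 : a * ∑ i, w i * x i ≤ a * t := mul_le_mul_of_nonneg_left h1 ha
      have h4 : b * ∑ i, w i * y i ≤ b * t := mul_le_mul_of_nonneg_left h2 hb
      have h5 : a * t + b * t = t := by rw [← add_mul, hab, one_mul]
      linarith
    · have h1 := hx.2.2.1 i
      have h2 := hy.2.2.1 i
      simp only [Pi.add_apply, Pi.smul_apply, smul_eq_mul]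
      positivity
    · simp [hx.2.2.2 i hi, hy.2.2.2 i hi]
  obtain ⟨RL, hRL, hRLb⟩ := hL.bdd
  obtain ⟨RK, hRK, hRKb⟩ := hK.bdd
  have hm : 0 < (C.card : ℝ) := by exact_mod_cast Finset.card_pos.mpr hC
  set η : ℝ := t / (C.card * (RL + RK)) with hη
  have hηpos : 0 < η := by positivity
  have hsmall : ∀ (A : Set (Fin n → ℝ)) (R : ℝ), 0 < R → R ≤ RL + RK → (∀ x ∈ A, ∀ i, |x i| ≤ R) →
      ∀ x ∈ A, ∑ i, x i * (if i ∈ C then η else 0) ≤ t := by
    intro A R _ hR hb x hx
    have h1 : ∑ i, x i * (if i ∈ C then η else 0) = ∑ i ∈ C, x i * η := by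
      rw [sum_eq_sum_C (C := C) fun i hi => by simp [hi]]
      refine Finset.sum_congr rfl fun i hi => ?_
      simp [hi]
    have h2 : ∑ i ∈ C, x i * η ≤ ∑ i ∈ C, (RL + RK) * η := by
      refine Finset.sum_le_sum fun i _ => ?_
      apply mul_le_mul_of_nonneg_right _ hηpos.le
      exact (le_abs_self _).trans ((hb x hx i).trans hR)
    have h3 : ∑ i ∈ C, (RL + RK) * η = t := by
      rw [Finset.sum_const, nsmul_eq_mul, hη]
      have : RL + RK ≠ 0 := by positivity
      field_simp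
    rw [h1]
    linarith
  have hpos : ∃ p ∈ S, ∀ i ∈ C, 0 < p i := by
    refine ⟨fun i => if i ∈ C then η else 0, ⟨fun x hx => ?_, fun x hx => ?_, fun i => ?_,
      fun i hi => ?_⟩, fun i hi => ?_⟩
    · exact (hsmall L RL hRL (by linarith) hRLb x hx).trans ht1
    · exact hsmall K RK hRK (by linarith) hRKb x hx
    · simp only
      split_ifs
      · exact hηpos.le
      · exact le_rfl
    · simp [hi]
    · simp [hi, hηpos]
  obtain ⟨ys, hyS, hys, hfo⟩ := exists_max_prod C hcomp hconv hpos (fun x hx => hx.2.2.1)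
  refine ⟨ys, hyS.1, hyS.2.1, hyS.2.2.1, hyS.2.2.2, hys, fun y h1 h2 h3 h4 => hfo y ⟨h1, h2, h3, h4⟩⟩

lemma exp_seven_half : 15 * Real.exp (7 / 2) ≤ 500 := by
  have h1 : Real.exp 1 < 2.7182818286 := Real.exp_one_lt_d9
  have h2 : Real.exp 7 = (Real.exp 1) ^ 7 := by
    rw [← Real.exp_nat_mul]
    norm_num
  have h3 : Real.exp 7 ≤ 1097 := by
    rw [h2]
    calc (Real.exp 1) ^ 7 ≤ (2.7182818286 : ℝ) ^ 7 :=
          pow_le_pow_left₀ (Real.exp_pos _).le h1.le 7
      _ ≤ 1097 := by norm_num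
  have h4 : Real.exp (7 / 2) ^ 2 = Real.exp 7 := by
    rw [← Real.exp_nat_mul]
    norm_num
  have h5 := Real.exp_pos (7 / 2)
  nlinarith

lemma prod_add_two_le (C : Finset (Fin n)) {a : Fin n → ℝ} (ha : ∀ i ∈ C, 0 < a i)
    (hsum : ∑ i ∈ C, a i ≤ (C.card : ℝ) / 2) :
    ∏ i ∈ C, (a i + 2) ≤ (5 / 2 : ℝ) ^ C.card := by
  set u : Fin n → ℝ := fun i => 2 / 5 * (a i - 1 / 2) with hu
  have h1 : ∀ i ∈ C, a i + 2 ≤ 5 / 2 * Real.exp (u i) := by
    intro i _
    have := Real.add_one_le_exp (u i)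
    simp only [hu] at this ⊢
    linarith
  have h2 : ∏ i ∈ C, (a i + 2) ≤ ∏ i ∈ C, (5 / 2 * Real.exp (u i)) :=
    Finset.prod_le_prod (fun i hi => by linarith [ha i hi]) h1
  have h3 : ∏ i ∈ C, (5 / 2 * Real.exp (u i)) =
      (5 / 2 : ℝ) ^ C.card * Real.exp (∑ i ∈ C, u i) := by
    rw [Finset.prod_mul_distrib, Finset.prod_const, Real.exp_sum]
  have h4 : ∑ i ∈ C, u i ≤ 0 := by
    simp only [hu]
    rw [← Finset.mul_sum, Finset.sum_sub_distrib]
    simp only [Finset.sum_const, nsmul_eq_mul]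
    nlinarith
  have h5 : Real.exp (∑ i ∈ C, u i) ≤ 1 := Real.exp_le_one_iff.mpr h4
  rw [h3] at h2
  have h6 : (0 : ℝ) ≤ (5 / 2 : ℝ) ^ C.card := by positivity
  nlinarith

end LowDimAux

open LowDimAux in
/-- (C) Low-dimensional duality. -/
theorem lowdim (hK : SBody K) (hL : SBody L) {t : ℝ} (ht0 : 0 < t) (ht1 : t ≤ 1)
    {c : Finset (Fin n → ℝ)} (hc : PCover t K L c) (C : Finset (Fin n))
    (X : Finset (Fin n → ℝ)) (hXK : ∀ x ∈ X, x ∈ K) (hXsupp : ∀ x ∈ X, ∀ i, i ∉ C → x i = 0)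
    (hsep : ∀ x ∈ X, ∀ x' ∈ X, x ≠ x' → ∃ z ∈ polar L, (1 / 2 : ℝ) < ∑ i, |z i| * |x i - x' i|) :
    (X.card : ℝ) ≤ (500 : ℝ) ^ C.card * c.card := by
  classical
  have h0polar : (0 : Fin n → ℝ) ∈ polar L := by
    intro x _
    simp
  obtain ⟨c₀, hc₀, -⟩ := hc 0 h0polar
  have hcpos : (1 : ℝ) ≤ c.card := by
    exact_mod_cast Finset.card_pos.mpr ⟨c₀, hc₀⟩
  rcases C.eq_empty_or_nonempty with hCe | hCne
  · subst hCe
    have h1 : X.card ≤ 1 := by
      apply Finset.card_le_one.mpr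
      intro a ha b hb
      funext i
      rw [hXsupp a ha i (by simp), hXsupp b hb i (by simp)]
    have h2 : (X.card : ℝ) ≤ 1 := by exact_mod_cast h1
    simpa using h2.trans hcpos
  obtain ⟨l, hlL, hl0, hlC, hlpos, hlfo⟩ := exists_l hL C
  obtain ⟨ys, hysL, hysK, hys0, hysC, hyspos, hysfo⟩ := exists_ys hK hL ht0 ht1 C hCne
  have hm : 0 < (C.card : ℝ) := by exact_mod_cast Finset.card_pos.mpr hCne
  set m : ℝ := (C.card : ℝ) with hmdef
  set g : Fin n → ℝ := fun i => 1 / (m * ys i * l i) with hg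
  have hgpos : ∀ i ∈ C, 0 < g i := by
    intro i hi
    have := hyspos i hi
    have := hlpos i hi
    simp only [hg]
    positivity
  have hgy : ∀ i ∈ C, g i * ys i = 1 / (m * l i) := by
    intro i hi
    have := (hyspos i hi).ne'
    have := (hlpos i hi).ne'
    simp only [hg]
    field_simp
  -- the box inside the polar of `L`
  have hbox : ∀ x ∈ L, ∀ w : Fin n → ℝ, (∀ i, i ∉ C → w i = 0) →
      (∀ i ∈ C, |w i| ≤ 1 / (m * l i)) → ∑ i, |x i| * |w i| ≤ 1 := by
    intro x hx w hw0 hw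
    rw [sum_eq_sum_C (C := C) fun i hi => by simp [hw0 i hi]]
    have h1 : ∑ i ∈ C, |x i| * |w i| ≤ ∑ i ∈ C, (1 / m) * (|x i| / l i) := by
      refine Finset.sum_le_sum fun i hi => ?_
      have h2 := mul_le_mul_of_nonneg_left (hw i hi) (abs_nonneg (x i))
      refine h2.trans (le_of_eq ?_)
      have := (hlpos i hi).ne'
      field_simp
    rw [← Finset.mul_sum] at h1
    have h3 := hlfo x hx
    have h4 : (1 / m) * ∑ i ∈ C, |x i| / l i ≤ (1 / m) * m :=
      mul_le_mul_of_nonneg_left h3 (by positivity)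
    have h5 : (1 / m) * m = 1 := by field_simp
    linarith
  have hpairle : ∀ (x y : Fin n → ℝ), ∑ i, x i * y i ≤ ∑ i, |x i| * |y i| := by
    intro x y
    refine Finset.sum_le_sum fun i _ => ?_
    rw [← abs_mul]
    exact le_abs_self _
  -- the grid
  set A : Finset (Fin n → ℤ) :=
    Fintype.piFinset (fun i => if i ∈ C then Finset.Icc 0 ⌊g i⌋ else {0}) with hA
  set gr : (Fin n → ℤ) → Fin n → ℝ := fun k i => (k i : ℝ) * ys i with hgr
  have hAmem : ∀ k ∈ A, (∀ i, i ∉ C → k i = 0) ∧ ∀ i ∈ C, 0 ≤ (k i : ℝ) ∧ (k i : ℝ) ≤ g i := by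
    intro k hk
    rw [hA, Fintype.mem_piFinset] at hk
    refine ⟨fun i hi => ?_, fun i hi => ?_⟩
    · have := hk i
      simpa [hi] using this
    · have := hk i
      simp only [hi, if_true, Finset.mem_Icc] at this
      exact ⟨by exact_mod_cast this.1, (Int.cast_le.mpr this.2).trans (Int.floor_le _)⟩
  have hgr0 : ∀ k i, i ∉ C → gr k i = 0 := by
    intro k i hi
    simp [hgr, hysC i hi]
  have hgrb : ∀ k ∈ A, ∀ i ∈ C, 0 ≤ gr k i ∧ gr k i ≤ 1 / (m * l i) := by
    intro k hk i hi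
    obtain ⟨h1, h2⟩ := (hAmem k hk).2 i hi
    have hy := (hyspos i hi).le
    refine ⟨mul_nonneg h1 hy, ?_⟩
    rw [← hgy i hi]
    exact mul_le_mul_of_nonneg_right h2 hy
  have hgrpolar : ∀ k ∈ A, gr k ∈ polar L := by
    intro k hk x hx
    refine (hpairle x (gr k)).trans (hbox x hx _ (hgr0 k) fun i hi => ?_)
    obtain ⟨h1, h2⟩ := hgrb k hk i hi
    rwa [abs_of_nonneg h1]
  have hφ : ∀ k : Fin n → ℤ, ∃ c₁ : Fin n → ℝ, k ∈ A →
      c₁ ∈ c ∧ ∀ x ∈ K, ∑ i, x i * (gr k i - c₁ i) ≤ t := by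
    intro k
    by_cases hk : k ∈ A
    · obtain ⟨c₁, h1, h2⟩ := hc _ (hgrpolar k hk)
      exact ⟨c₁, fun _ => ⟨h1, h2⟩⟩
    · exact ⟨0, fun h => absurd h hk⟩
  choose φ hφ using hφ
  -- bound on a fibre
  have hfib : ∀ c₁ ∈ c, ((A.filter fun k => φ k = c₁).card : ℝ) ≤
      Real.exp (2 * m) * 3 ^ C.card := by
    intro c₁ _
    set Fb := A.filter fun k => φ k = c₁ with hFb
    rcases Fb.eq_empty_or_nonempty with he | ⟨k₀, hk₀⟩
    · rw [he]
      simp only [Finset.card_empty, Nat.cast_zero]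
      positivity
    have hk₀A : k₀ ∈ A := (Finset.mem_filter.mp hk₀).1
    have hk₀φ : φ k₀ = c₁ := (Finset.mem_filter.mp hk₀).2
    set Fb' := Fb.image fun k => k - k₀ with hFb'
    have hcard : Fb'.card = Fb.card :=
      Finset.card_image_of_injective _ (fun a b hab => sub_left_inj.mp hab)
    have h1 := lattice_count C (a := fun _ => (1 : ℝ)) (fun _ _ => one_pos) (M := 2 * m) Fb'
      (by
        intro k hk i hi
        obtain ⟨k₁, hk₁, rfl⟩ := Finset.mem_image.mp hk
        have h2 := (hAmem k₁ (Finset.mem_filter.mp hk₁).1).1 i hi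
        have h3 := (hAmem k₀ hk₀A).1 i hi
        simp [h2, h3])
      (by
        intro k hk
        obtain ⟨k₁, hk₁, rfl⟩ := Finset.mem_image.mp hk
        have hk₁A : k₁ ∈ A := (Finset.mem_filter.mp hk₁).1
        have hk₁φ : φ k₁ = c₁ := (Finset.mem_filter.mp hk₁).2
        have hA1 := (hφ k₁ hk₁A).2
        have hA0 := (hφ k₀ hk₀A).2
        rw [hk₁φ] at hA1
        rw [hk₀φ] at hA0
        have hcell := fun x (hx : x ∈ K) => cell_diam hK hA1 hA0 hx
        set v : Fin n → ℝ := fun i => |gr k₁ i - gr k₀ i| / 2 with hv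
        have hdiffb : ∀ i ∈ C, |gr k₁ i - gr k₀ i| ≤ 1 / (m * l i) := by
          intro i hi
          obtain ⟨a1, a2⟩ := hgrb k₁ hk₁A i hi
          obtain ⟨b1, b2⟩ := hgrb k₀ hk₀A i hi
          rw [abs_le]
          constructor <;> linarith
        have hv0 : ∀ i, i ∉ C → v i = 0 := by
          intro i hi
          simp [hv, hgr0 _ i hi]
        have hvnn : ∀ i, 0 ≤ v i := fun i => by
          simp only [hv]
          positivity
        have hvL : v ∈ polar L := by
          intro x hx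
          refine (hpairle x v).trans (hbox x hx v hv0 fun i hi => ?_)
          rw [abs_of_nonneg (hvnn i)]
          have h2 := hdiffb i hi
          have h3 := abs_nonneg (gr k₁ i - gr k₀ i)
          simp only [hv]
          linarith
        have hvK : ∀ x ∈ K, ∑ i, x i * v i ≤ t := by
          intro x hx
          have h2 := hcell x hx
          have h3 : ∑ i, x i * v i ≤ ∑ i, |x i| * |gr k₁ i - gr k₀ i| / 2 := by
            refine Finset.sum_le_sum fun i _ => ?_
            simp only [hv]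
            have h4 : x i * (|gr k₁ i - gr k₀ i| / 2) ≤ |x i| * (|gr k₁ i - gr k₀ i| / 2) :=
              mul_le_mul_of_nonneg_right (le_abs_self _) (by positivity)
            linarith
          rw [← Finset.sum_div] at h3
          linarith
        have hfo := hysfo v hvL hvK hvnn hv0
        have h2 : ∑ i ∈ C, |(((k₁ - k₀) i : ℤ) : ℝ)| * 1 = 2 * ∑ i ∈ C, v i / ys i := by
          rw [Finset.mul_sum]
          refine Finset.sum_congr rfl fun i hi => ?_
          have hyne := hyspos i hi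
          simp only [hv, hgr, Pi.sub_apply]
          rw [← sub_mul, abs_mul, abs_of_pos hyne]
          push_cast
          field_simp
        rw [h2]
        linarith)
    have h3 : ∏ i ∈ C, (1 + 2 / (1 : ℝ)) = 3 ^ C.card := by
      rw [Finset.prod_const]
      norm_num
    rw [h3, hcard] at h1
    exact h1
  -- counting the grid
  have hAcard : ∏ i ∈ C, g i ≤ (A.card : ℝ) := by
    have h1 : (A.card : ℝ) = ∏ i, ((if i ∈ C then Finset.Icc 0 ⌊g i⌋ else {0} : Finset ℤ).card : ℝ) := by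
      rw [hA, Fintype.card_piFinset]
      push_cast
      rfl
    have h2 : ∏ i ∈ C, g i = ∏ i, if i ∈ C then g i else 1 := by
      rw [Finset.prod_ite_mem, Finset.univ_inter]
    rw [h1, h2]
    refine Finset.prod_le_prod (fun i _ => ?_) fun i _ => ?_
    · split_ifs with hi
      · exact (hgpos i hi).le
      · exact zero_le_one
    · by_cases hi : i ∈ C
      · simp only [hi, if_true]
        have hg0 := hgpos i hi
        have hf0 : 0 ≤ ⌊g i⌋ := Int.floor_nonneg.mpr hg0.le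
        rw [Int.card_Icc]
        have h3 : ((⌊g i⌋ + 1 - 0).toNat : ℤ) = ⌊g i⌋ + 1 := by
          rw [Int.toNat_of_nonneg (by omega)]
          ring
        have h4 : (((⌊g i⌋ + 1 - 0).toNat : ℕ) : ℝ) = (⌊g i⌋ : ℝ) + 1 := by
          have := congrArg (fun z : ℤ => (z : ℝ)) h3
          push_cast at this
          exact this
        rw [h4]
        exact (Int.lt_floor_add_one _).le
      · simp [hi]
  have hAle : (A.card : ℝ) ≤ c.card * (Real.exp (2 * m) * 3 ^ C.card) := by
    have h1 : A.card = ∑ c₁ ∈ c, (A.filter fun k => φ k = c₁).card :=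
      Finset.card_eq_sum_card_fiberwise fun k hk => (hφ k hk).1
    rw [h1]
    push_cast
    calc ∑ c₁ ∈ c, ((A.filter fun k => φ k = c₁).card : ℝ)
        ≤ ∑ _c₁ ∈ c, Real.exp (2 * m) * 3 ^ C.card := Finset.sum_le_sum hfib
      _ = _ := by rw [Finset.sum_const, nsmul_eq_mul]
  -- the cells of `X`
  set nm : (Fin n → ℝ) → Fin n → ℤ := fun x i => if i ∈ C then ⌊2 * x i / l i⌋ else 0 with hnm
  have hinj : Set.InjOn nm X := by
    intro x hx x' hx' heq
    by_contra hne
    obtain ⟨z, hz, hzlt⟩ := hsep x hx x' hx' hne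
    have hb : ∀ i, |x i - x' i| ≤ |l i| / 2 := by
      intro i
      by_cases hi : i ∈ C
      · have h1 := congrFun heq i
        simp only [hnm, hi, if_true] at h1
        have h2 := Int.abs_sub_lt_one_of_floor_eq_floor h1
        have hli := hlpos i hi
        rw [abs_of_pos hli]
        have h3 : 2 * x i / l i - 2 * x' i / l i = 2 * (x i - x' i) / l i := by ring
        rw [h3, abs_div, abs_mul, abs_of_pos hli, div_lt_one hli] at h2
        simp only [abs_two] at h2
        linarith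
      · rw [hXsupp x hx i hi, hXsupp x' hx' i hi, sub_self, abs_zero]
        positivity
    have h1 := hL.abs_pair_le_one hlL hz
    have h2 : ∑ i, |z i| * |x i - x' i| ≤ ∑ i, |l i| * |z i| / 2 := by
      refine Finset.sum_le_sum fun i _ => ?_
      have := mul_le_mul_of_nonneg_left (hb i) (abs_nonneg (z i))
      linarith
    rw [← Finset.sum_div] at h2
    linarith
  have hXcard : X.card = (X.image nm).card := (Finset.card_image_of_injOn hinj).symm
  set a : Fin n → ℝ := fun i => m * l i * ys i / 2 with ha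
  have hapos : ∀ i ∈ C, 0 < a i := by
    intro i hi
    have := hyspos i hi
    have := hlpos i hi
    simp only [ha]
    positivity
  have hasum : ∑ i ∈ C, a i ≤ m / 2 := by
    have h1 := hysL l hlL
    rw [sum_eq_sum_C (C := C) fun i hi => by simp [hlC i hi]] at h1
    have h2 : ∑ i ∈ C, a i = (m / 2) * ∑ i ∈ C, l i * ys i := by
      rw [Finset.mul_sum]
      refine Finset.sum_congr rfl fun i _ => ?_
      simp only [ha]
      ring
    rw [h2]
    have : (m / 2) * ∑ i ∈ C, l i * ys i ≤ (m / 2) * 1 :=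
      mul_le_mul_of_nonneg_left h1 (by positivity)
    linarith
  have hXle : (X.card : ℝ) ≤ Real.exp (3 * m / 2) * ∏ i ∈ C, (1 + 2 / a i) := by
    rw [hXcard]
    refine lattice_count C hapos (X.image nm) ?_ ?_
    · intro k hk i hi
      obtain ⟨x, _, rfl⟩ := Finset.mem_image.mp hk
      simp [hnm, hi]
    · intro k hk
      obtain ⟨x, hx, rfl⟩ := Finset.mem_image.mp hk
      have hxK := hXK x hx
      have h1 : ∀ i ∈ C, |(nm x i : ℝ)| * a i ≤ m * (|x i| * ys i) + a i := by
        intro i hi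
        have hli := hlpos i hi
        have hai := hapos i hi
        have hn : |(nm x i : ℝ)| ≤ 2 * |x i| / l i + 1 := by
          simp only [hnm, hi, if_true]
          have h2 := Int.floor_le (2 * x i / l i)
          have h3 := Int.lt_floor_add_one (2 * x i / l i)
          have h4 : |2 * x i / l i| = 2 * |x i| / l i := by
            rw [abs_div, abs_mul, abs_of_pos hli]
            simp
          rw [abs_le]
          have h5 := abs_le.mp (le_of_eq h4)
          constructor <;> linarith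
        calc |(nm x i : ℝ)| * a i ≤ (2 * |x i| / l i + 1) * a i :=
              mul_le_mul_of_nonneg_right hn hai.le
          _ = _ := by
              simp only [ha]
              field_simp
      have h2 : ∑ i ∈ C, |x i| * ys i ≤ t := by
        have h3 : (fun i => |x i|) ∈ K := hK.solid x hxK _ fun i => by simp
        have h4 := hysK _ h3
        rwa [sum_eq_sum_C (C := C) fun i hi => by simp [hysC i hi]] at h4
      calc ∑ i ∈ C, |(nm x i : ℝ)| * a i ≤ ∑ i ∈ C, (m * (|x i| * ys i) + a i) :=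
            Finset.sum_le_sum h1
        _ = m * ∑ i ∈ C, |x i| * ys i + ∑ i ∈ C, a i := by
            rw [Finset.sum_add_distrib, Finset.mul_sum]
        _ ≤ m * 1 + m / 2 := by
            have : m * ∑ i ∈ C, |x i| * ys i ≤ m * 1 :=
              mul_le_mul_of_nonneg_left (h2.trans ht1) hm.le
            linarith
        _ = 3 * m / 2 := by ring
  -- the arithmetic
  have hprod : ∏ i ∈ C, (1 + 2 / a i) ≤ 5 ^ C.card * ∏ i ∈ C, g i := by
    have h1 : ∀ i ∈ C, 1 + 2 / a i = (a i + 2) * (2 * g i) := by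
      intro i hi
      have := (hyspos i hi).ne'
      have := (hlpos i hi).ne'
      simp only [ha, hg]
      field_simp
    rw [Finset.prod_congr rfl h1, Finset.prod_mul_distrib, Finset.prod_mul_distrib,
      Finset.prod_const]
    have h2 := prod_add_two_le C hapos (by rw [← hmdef]; exact hasum)
    have h3 : 0 ≤ ∏ i ∈ C, g i := Finset.prod_nonneg fun i hi => (hgpos i hi).le
    calc (∏ i ∈ C, (a i + 2)) * (2 ^ C.card * ∏ i ∈ C, g i)
        ≤ (5 / 2 : ℝ) ^ C.card * (2 ^ C.card * ∏ i ∈ C, g i) :=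
          mul_le_mul_of_nonneg_right h2 (by positivity)
      _ = 5 ^ C.card * ∏ i ∈ C, g i := by
          rw [← mul_assoc, ← mul_pow]
          norm_num
  have hexp : Real.exp (3 * m / 2) * Real.exp (2 * m) = Real.exp (7 / 2) ^ C.card := by
    rw [← Real.exp_add, ← Real.exp_nat_mul]
    congr 1
    rw [← hmdef]
    ring
  have hfin : (X.card : ℝ) ≤ (15 * Real.exp (7 / 2)) ^ C.card * c.card := by
    have e0 := Real.exp_pos (3 * m / 2)
    calc (X.card : ℝ) ≤ Real.exp (3 * m / 2) * ∏ i ∈ C, (1 + 2 / a i) := hXle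
      _ ≤ Real.exp (3 * m / 2) * (5 ^ C.card * ∏ i ∈ C, g i) :=
          mul_le_mul_of_nonneg_left hprod e0.le
      _ ≤ Real.exp (3 * m / 2) * (5 ^ C.card * (c.card * (Real.exp (2 * m) * 3 ^ C.card))) := by
          apply mul_le_mul_of_nonneg_left _ e0.le
          apply mul_le_mul_of_nonneg_left (hAcard.trans hAle) (by positivity)
      _ = (Real.exp (3 * m / 2) * Real.exp (2 * m)) * (5 ^ C.card * 3 ^ C.card) * c.card := by ring
      _ = (15 * Real.exp (7 / 2)) ^ C.card * c.card := by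
          have h53 : (5 : ℝ) * 3 = 15 := by norm_num
          rw [hexp, mul_pow, ← mul_pow (5 : ℝ) 3, h53]
          ring
  refine hfin.trans ?_
  apply mul_le_mul_of_nonneg_right _ (by positivity)
  exact pow_le_pow_left₀ (by positivity) exp_seven_half _

end Vale.Agent.Lib.P126U
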