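import Vale.Agent.Lib.P126U.Core
import Vale.Agent.Lib.P126U.LowDim
import Vale.Agent.Lib.P126U.KL
import Vale.Agent.Lib.P126U.Gibbs

open scoped BigOperators

namespace Vale.Agent.Lib.P126U

variable {n : ℕ} {K L : Set (Fin n → ℝ)}

namespace Sep

/-- Restriction of a vector to a set of coordinates. -/
def rst (T : Finset (Fin n)) (z : Fin n → ℝ) : Fin n → ℝ := fun i => if i ∈ T then z i else 0

/-- The vector `|x|` on `Tx \ Ty`. -/
def uu (x : Fin n → ℝ) (Tx Ty : Finset (Fin n)) : Fin n → ℝ :=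
  fun i => if i ∈ Tx ∧ i ∉ Ty then |x i| else 0

lemma uu_nonneg (x : Fin n → ℝ) (Tx Ty : Finset (Fin n)) (i : Fin n) : 0 ≤ uu x Tx Ty i := by
  unfold uu; split_ifs <;> simp

lemma uu_mem (hK : SBody K) {x : Fin n → ℝ} (hx : x ∈ K) (Tx Ty : Finset (Fin n)) :
    uu x Tx Ty ∈ K :=
  hK.solid x hx _ (fun i => by unfold uu; split_ifs <;> simp)

lemma rst_mem (hK : SBody K) {x : Fin n → ℝ} (hx : x ∈ K) (T : Finset (Fin n)) : rst T x ∈ K :=
  hK.solid x hx _ (fun i => by unfold rst; split_ifs <;> simp)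

lemma polar_solid (hL : SBody L) {z w : Fin n → ℝ} (hz : z ∈ polar L)
    (h : ∀ i, |w i| ≤ |z i|) : w ∈ polar L := by
  intro x hx
  have h1 := hL.abs_pair_le_one hx hz
  refine le_trans (Finset.sum_le_sum (fun i _ => ?_)) h1
  calc x i * w i ≤ |x i * w i| := le_abs_self _
    _ = |x i| * |w i| := abs_mul _ _
    _ ≤ |x i| * |z i| := mul_le_mul_of_nonneg_left (h i) (abs_nonneg _)

lemma rst_mem_polar (hL : SBody L) {z : Fin n → ℝ} (hz : z ∈ polar L) (T : Finset (Fin n)) :
    rst T z ∈ polar L :=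
  polar_solid hL hz (fun i => by unfold rst; split_ifs <;> simp)

lemma abs_mem_polarPos (hL : SBody L) {z : Fin n → ℝ} (hz : z ∈ polar L) :
    (fun i => |z i|) ∈ polarPos L :=
  ⟨polar_solid hL hz (fun i => by simp), fun i => abs_nonneg _⟩

lemma polarPos_convex : Convex ℝ (polarPos L) := by
  intro a ha b hb s r hs hr hsr
  refine ⟨?_, fun i => ?_⟩
  · intro x hx
    have h1 := ha.1 x hx
    have h2 := hb.1 x hx
    have : ∑ i, x i * (s • a + r • b) i = s * ∑ i, x i * a i + r * ∑ i, x i * b i := by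
      simp only [Pi.add_apply, Pi.smul_apply, smul_eq_mul, Finset.mul_sum,
        ← Finset.sum_add_distrib]
      exact Finset.sum_congr rfl (fun i _ => by ring)
    rw [this]
    have h3 := mul_le_mul_of_nonneg_left h1 hs
    have h4 := mul_le_mul_of_nonneg_left h2 hr
    linarith
  · have h1 := ha.2 i
    have h2 := hb.2 i
    simp only [Pi.add_apply, Pi.smul_apply, smul_eq_mul]
    positivity

lemma polarPos_nonempty : (polarPos L).Nonempty :=
  ⟨0, fun x _ => by simp, fun i => le_rfl⟩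

lemma polarPos_compact (hL : SBody L) : IsCompact (polarPos L) := by
  classical
  obtain ⟨δ, hδ, hδL⟩ := hL.nbhd
  have hcl : IsClosed (polarPos L) := by
    have : polarPos L = (⋂ x ∈ L, {y : Fin n → ℝ | ∑ i, x i * y i ≤ 1}) ∩
        ⋂ i, {y : Fin n → ℝ | 0 ≤ y i} := by
      ext y
      simp only [polarPos, polar, Set.mem_setOf_eq, Set.mem_inter_iff, Set.mem_iInter]
    rw [this]
    refine IsClosed.inter (isClosed_biInter fun x _ => ?_) (isClosed_iInter fun i => ?_)
    · exact isClosed_le (by fun_prop) continuous_const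
    · exact isClosed_le continuous_const (by fun_prop)
  refine IsCompact.of_isClosed_subset
    (isCompact_univ_pi (fun _ : Fin n => isCompact_Icc (a := (0 : ℝ)) (b := 1 / δ))) hcl ?_
  intro z hz i _
  refine ⟨hz.2 i, ?_⟩
  have hmem : (Pi.single i δ : Fin n → ℝ) ∈ L := by
    apply hδL
    intro j
    by_cases hj : j = i
    · subst hj; simp [abs_of_pos hδ]
    · simp [Pi.single_eq_of_ne hj, hδ.le]
  have h1 := hz.1 _ hmem
  have h2 : ∑ j, (Pi.single i δ : Fin n → ℝ) j * z j = δ * z i := by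
    rw [Finset.sum_eq_single i]
    · simp
    · intro j _ hj; simp [Pi.single_eq_of_ne hj]
    · simp
  rw [h2] at h1
  rw [le_div_iff₀ hδ]
  linarith

/-- The pairing of the restricted minimiser with `uu`. -/
lemma pair_rst (x z : Fin n → ℝ) (Tx Ty : Finset (Fin n)) :
    ∑ i, rst Tx z i * uu x Tx Ty i = ∑ i, z i * uu x Tx Ty i := by
  refine Finset.sum_congr rfl (fun i _ => ?_)
  unfold rst uu
  by_cases h1 : i ∈ Tx
  · simp [h1]
  · simp [h1]

/-- One cell: the pairing is small when `b` vanishes where `uu` lives. -/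
lemma cell_pair (hK : SBody K) {t : ℝ} {c₀ a b x : Fin n → ℝ} {Tx Ty : Finset (Fin n)}
    (ha : ∀ w ∈ K, ∑ i, w i * (a i - c₀ i) ≤ t) (hb : ∀ w ∈ K, ∑ i, w i * (b i - c₀ i) ≤ t)
    (hx : x ∈ K) (hb0 : ∀ i, i ∉ Ty → b i = 0) :
    ∑ i, a i * uu x Tx Ty i ≤ 2 * t := by
  have h1 := cell_diam hK ha hb (uu_mem hK hx Tx Ty)
  refine le_trans (Finset.sum_le_sum (fun i _ => ?_)) h1
  have hu := uu_nonneg x Tx Ty i
  rw [abs_of_nonneg hu]
  by_cases hi : i ∈ Tx ∧ i ∉ Ty
  · rw [hb0 i hi.2, sub_zero, mul_comm]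
    exact mul_le_mul_of_nonneg_left (le_abs_self _) hu
  · have : uu x Tx Ty i = 0 := by unfold uu; rw [if_neg hi]
    rw [this]; simp

/-- Entropy is at most the log of the cardinality. -/
lemma entropy_le {Y : Type*} [Fintype Y] [Nonempty Y] (ν : Y → ℝ) (h0 : ∀ y, 0 < ν y)
    (h1 : ∑ y, ν y = 1) : ∑ y, -(ν y * Real.log (ν y)) ≤ Real.log (Fintype.card Y) := by
  have hc : (0 : ℝ) < Fintype.card Y := by exact_mod_cast Fintype.card_pos
  have key : ∀ y, -(ν y * Real.log (ν y)) - ν y * Real.log (Fintype.card Y) ≤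
      1 / (Fintype.card Y : ℝ) - ν y := by
    intro y
    have hpos : 0 < (Fintype.card Y : ℝ) * ν y := mul_pos hc (h0 y)
    have h2 := Real.log_le_sub_one_of_pos (inv_pos.mpr hpos)
    rw [Real.log_inv, Real.log_mul hc.ne' (h0 y).ne'] at h2
    have h3 := mul_le_mul_of_nonneg_left h2 (h0 y).le
    have h4 : ν y * (((Fintype.card Y : ℝ) * ν y)⁻¹ - 1) = 1 / (Fintype.card Y : ℝ) - ν y := by
      have := (h0 y).ne'
      field_simp
    rw [h4] at h3
    nlinarith
  have hs := Finset.sum_le_sum (fun y (_ : y ∈ Finset.univ) => key y)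
  rw [Finset.sum_sub_distrib, Finset.sum_sub_distrib, ← Finset.sum_mul, h1] at hs
  simp only [Finset.sum_const, Finset.card_univ, nsmul_eq_mul] at hs
  have h5 : (Fintype.card Y : ℝ) * (1 / (Fintype.card Y : ℝ)) = 1 := by field_simp
  rw [h5] at hs
  linarith

/-- The Gibbs distribution: positivity, entropy, small mean. -/
lemma gibbs_calc {Y : Type*} [Fintype Y] [Nonempty Y] (a : Y → ℝ) (ha : ∀ y, 0 ≤ a y)
    {P : ℝ} (hP : 0 < P) (hlog : Real.log (Fintype.card Y) = P)
    (hZ : Real.exp (3 * P / 4) < ∑ y, Real.exp (-(8 * P) * a y)) :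
    (∀ y, 0 < Real.exp (-(8 * P) * a y) / ∑ y, Real.exp (-(8 * P) * a y)) ∧
    (∑ y, Real.exp (-(8 * P) * a y) / ∑ y, Real.exp (-(8 * P) * a y)) = 1 ∧
    3 * P / 4 ≤ ∑ y, -((Real.exp (-(8 * P) * a y) / ∑ y, Real.exp (-(8 * P) * a y)) *
      Real.log (Real.exp (-(8 * P) * a y) / ∑ y, Real.exp (-(8 * P) * a y))) ∧
    ∑ y, (Real.exp (-(8 * P) * a y) / ∑ y, Real.exp (-(8 * P) * a y)) * a y ≤ 1 / 32 := by
  set Z := ∑ y, Real.exp (-(8 * P) * a y) with hZdef
  have hZpos : 0 < Z := lt_trans (Real.exp_pos _) hZ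
  set ν : Y → ℝ := fun y => Real.exp (-(8 * P) * a y) / Z with hν
  have hν0 : ∀ y, 0 < ν y := fun y => div_pos (Real.exp_pos _) hZpos
  have hν1 : ∑ y, ν y = 1 := by
    simp only [hν]
    rw [← Finset.sum_div, ← hZdef, div_self hZpos.ne']
  have hlogν : ∀ y, -(ν y * Real.log (ν y)) = ν y * (8 * P * a y + Real.log Z) := by
    intro y
    simp only [hν]
    rw [Real.log_div (Real.exp_pos _).ne' hZpos.ne', Real.log_exp]
    ring
  have hH : ∑ y, -(ν y * Real.log (ν y)) = 8 * P * ∑ y, ν y * a y + Real.log Z := by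
    simp only [hlogν]
    have : ∀ y, ν y * (8 * P * a y + Real.log Z) = 8 * P * (ν y * a y) + ν y * Real.log Z :=
      fun y => by ring
    simp only [this]
    rw [Finset.sum_add_distrib, ← Finset.mul_sum, ← Finset.sum_mul, hν1, one_mul]
  have hmean0 : 0 ≤ ∑ y, ν y * a y :=
    Finset.sum_nonneg (fun y _ => mul_nonneg (hν0 y).le (ha y))
  have hlogZ : 3 * P / 4 < Real.log Z := by
    rw [← Real.log_exp (3 * P / 4)]
    exact Real.log_lt_log (Real.exp_pos _) hZ
  have hle := entropy_le ν hν0 hν1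
  rw [hH, hlog] at hle
  refine ⟨hν0, hν1, ?_, ?_⟩
  · show 3 * P / 4 ≤ ∑ y, -(ν y * Real.log (ν y))
    rw [hH]
    have : 0 ≤ 8 * P * ∑ y, ν y * a y := by positivity
    linarith
  · show ∑ y, ν y * a y ≤ 1 / 32
    by_contra hcon
    push Not at hcon
    have : P / 4 < 8 * P * ∑ y, ν y * a y := by nlinarith
    linarith

/-- Pigeonhole in Case 1. -/
lemma case1_abstract {Y : Type*} [Fintype Y] (c : Finset (Fin n → ℝ)) (hc : c.Nonempty)
    (e : Y → Y → ℝ) (he : ∀ x y, 0 < e x y)
    (A : Finset Y) (cell : Y → Fin n → ℝ) (hcell : ∀ x ∈ A, cell x ∈ c)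
    {p : ℝ} (hp : 0 < p) (hA : ∀ x ∈ A, ∑ y, e x y ≤ Real.exp (3 * p / 4))
    (hee : ∀ x ∈ A, ∀ y ∈ A, cell x = cell y → Real.exp (-(p / 8)) ≤ e x y)
    (hAcard : (Fintype.card Y : ℝ) ≤ 2 * A.card) (hY : Real.log (Fintype.card Y) = p) :
    p ≤ 8 * (Real.log 2 + Real.log c.card) := by
  classical
  have hYpos : (0 : ℝ) < Fintype.card Y := by
    by_contra h
    have h0 : (Fintype.card Y : ℝ) = 0 := le_antisymm (not_lt.mp h) (Nat.cast_nonneg _)
    rw [h0, Real.log_zero] at hY
    linarith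
  have hApos : (0 : ℝ) < A.card := by linarith
  have hcpos : (0 : ℝ) < c.card := by exact_mod_cast hc.card_pos
  obtain ⟨c₀, hc₀, hfib⟩ := Finset.exists_le_card_fiber_of_nsmul_le_card_of_maps_to
    (s := A) (t := c) (f := cell) (b := ((A.card : ℝ) / c.card)) hcell hc (by
      simp only [nsmul_eq_mul]
      rw [mul_div_cancel₀ _ hcpos.ne'])
  set S := A.filter (fun x => cell x = c₀) with hS
  have hSpos : (0 : ℝ) < S.card := lt_of_lt_of_le (div_pos hApos hcpos) hfib
  have hSne : S.Nonempty := by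
    rw [← Finset.card_pos]; exact_mod_cast hSpos
  obtain ⟨x₀, hx₀⟩ := hSne
  have hx₀A : x₀ ∈ A := (Finset.mem_filter.mp hx₀).1
  have hx₀c : cell x₀ = c₀ := (Finset.mem_filter.mp hx₀).2
  have h1 : (S.card : ℝ) * Real.exp (-(p / 8)) ≤ ∑ y, e x₀ y := by
    calc (S.card : ℝ) * Real.exp (-(p / 8)) = ∑ y ∈ S, Real.exp (-(p / 8)) := by
          simp
      _ ≤ ∑ y ∈ S, e x₀ y := by
          refine Finset.sum_le_sum (fun y hy => hee x₀ hx₀A y (Finset.mem_filter.mp hy).1 ?_)
          rw [hx₀c, (Finset.mem_filter.mp hy).2]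
      _ ≤ ∑ y, e x₀ y := Finset.sum_le_sum_of_subset_of_nonneg (Finset.subset_univ _)
          (fun y _ _ => (he x₀ y).le)
  have h2 := hA x₀ hx₀A
  have h3 : (S.card : ℝ) * Real.exp (-(p / 8)) ≤ Real.exp (3 * p / 4) := le_trans h1 h2
  have h4 : (S.card : ℝ) ≤ Real.exp (7 * p / 8) := by
    have h5 : Real.exp (7 * p / 8) = Real.exp (3 * p / 4) * Real.exp (p / 8) := by
      rw [← Real.exp_add]; ring_nf
    have h6 : Real.exp (-(p / 8)) * Real.exp (p / 8) = 1 := by
      rw [← Real.exp_add]; simp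
    rw [h5]
    calc (S.card : ℝ) = (S.card : ℝ) * Real.exp (-(p / 8)) * Real.exp (p / 8) := by
          rw [mul_assoc, h6, mul_one]
      _ ≤ Real.exp (3 * p / 4) * Real.exp (p / 8) :=
          mul_le_mul_of_nonneg_right h3 (Real.exp_pos _).le
  -- logarithms
  have h7 : (Fintype.card Y : ℝ) ≤ 2 * c.card * S.card := by
    have : (A.card : ℝ) ≤ c.card * S.card := by
      rw [div_le_iff₀ hcpos] at hfib
      linarith
    nlinarith
  have h8 : p ≤ Real.log (2 * c.card * S.card) := by
    rw [← hY]; exact Real.log_le_log hYpos h7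
  rw [Real.log_mul (by positivity) hSpos.ne', Real.log_mul (by norm_num) hcpos.ne'] at h8
  have h9 : Real.log S.card ≤ 7 * p / 8 := by
    rw [← Real.log_exp (7 * p / 8)]
    exact Real.log_le_log hSpos h4
  linarith

/-- Bound on a fibre of the coding map, via the low-dimensional lemma. -/
lemma fibre_bound (hK : SBody K) (hL : SBody L) {t : ℝ} (ht0 : 0 < t) (ht1 : t ≤ 1)
    {c : Finset (Fin n → ℝ)} (hc : PCover t K L c) {X : Type*} [DecidableEq X]
    (pts : X → Fin n → ℝ) (fib : Finset X) (C : Finset (Fin n))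
    (hpts : ∀ x ∈ fib, pts x ∈ K)
    (hsep : ∀ x ∈ fib, ∀ x' ∈ fib, x ≠ x' →
      ∃ z ∈ polar L, (1 / 2 : ℝ) < ∑ i ∈ C, |z i| * |pts x i - pts x' i|) :
    (fib.card : ℝ) ≤ (500 : ℝ) ^ C.card * c.card := by
  classical
  have hsum : ∀ (z a b : Fin n → ℝ), ∑ i, |z i| * |rst C a i - rst C b i| =
      ∑ i ∈ C, |z i| * |a i - b i| := by
    intro z a b
    rw [← Finset.sum_subset (Finset.subset_univ C)]
    · refine Finset.sum_congr rfl (fun i hi => ?_)
      simp [rst, hi]
    · intro i _ hi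
      simp [rst, hi]
  have hinj : Set.InjOn (fun x => rst C (pts x)) (fib : Set X) := by
    intro x hx x' hx' he
    by_contra hne
    obtain ⟨z, _, hz⟩ := hsep x hx x' hx' hne
    rw [← hsum] at hz
    simp only at he
    rw [he] at hz
    simp at hz
    linarith
  have hcard := Finset.card_image_of_injOn hinj
  rw [← hcard]
  refine lowdim hK hL ht0 ht1 hc C _ ?_ ?_ ?_
  · intro a ha
    obtain ⟨x, hx, rfl⟩ := Finset.mem_image.mp ha
    exact rst_mem hK (hpts x hx) C
  · intro a ha i hi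
    obtain ⟨x, hx, rfl⟩ := Finset.mem_image.mp ha
    simp [rst, hi]
  · intro a ha a' ha' hne
    obtain ⟨x, hx, rfl⟩ := Finset.mem_image.mp ha
    obtain ⟨x', hx', rfl⟩ := Finset.mem_image.mp ha'
    have hxx : x ≠ x' := fun h => hne (by rw [h])
    obtain ⟨z, hz, hz2⟩ := hsep x hx x' hx' hxx
    refine ⟨z, hz, ?_⟩
    rw [hsum]
    exact hz2

/-- Off a set `C ⊆ T` the pairing is small. -/
lemma offC {T C : Finset (Fin n)} (hCT : C ⊆ T) {z x : Fin n → ℝ} {A B : ℝ}
    (h1 : ∑ i ∈ Tᶜ, |z i| * |x i| ≤ A) (h2 : ∑ i ∈ T \ C, |z i| * |x i| ≤ B) :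
    ∑ i ∈ Cᶜ, |z i| * |x i| ≤ A + B := by
  classical
  have hsplit : Cᶜ = Tᶜ ∪ (T \ C) := by
    ext i
    simp only [Finset.mem_compl, Finset.mem_union, Finset.mem_sdiff]
    constructor
    · intro hi
      by_cases hT : i ∈ T
      · exact Or.inr ⟨hT, hi⟩
      · exact Or.inl hT
    · rintro (hi | hi)
      · exact fun h => hi (hCT h)
      · exact hi.2
  have hdisj : Disjoint Tᶜ (T \ C) := by
    rw [Finset.disjoint_left]
    intro i hi hi2
    exact (Finset.mem_compl.mp hi) (Finset.mem_sdiff.mp hi2).1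
  rw [hsplit, Finset.sum_union hdisj]
  linarith

/-- Separation survives on a common set `C`. -/
lemma sep_on_C {z x₁ x₂ : Fin n → ℝ} {C : Finset (Fin n)} {A : ℝ}
    (h : 1 < ∑ i, |z i| * |x₁ i - x₂ i|)
    (h1 : ∑ i ∈ Cᶜ, |z i| * |x₁ i| ≤ A) (h2 : ∑ i ∈ Cᶜ, |z i| * |x₂ i| ≤ A) :
    1 - 2 * A < ∑ i ∈ C, |z i| * |x₁ i - x₂ i| := by
  classical
  have hsplit := Finset.sum_add_sum_compl C (fun i => |z i| * |x₁ i - x₂ i|)
  have hle : ∑ i ∈ Cᶜ, |z i| * |x₁ i - x₂ i| ≤
      ∑ i ∈ Cᶜ, |z i| * |x₁ i| + ∑ i ∈ Cᶜ, |z i| * |x₂ i| := by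
    rw [← Finset.sum_add_distrib]
    refine Finset.sum_le_sum (fun i _ => ?_)
    rw [← mul_add]
    exact mul_le_mul_of_nonneg_left (abs_sub _ _) (abs_nonneg _)
  linarith

end Sep

open Sep in
/-- (G) Main bound on separated sets. -/
theorem sep_bound (hK : SBody K) (hL : SBody L) {c : Finset (Fin n → ℝ)}
    (hc : PCover (1 / 128) K L c) (hN : 2 ≤ c.card) (F : Finset (Fin n → ℝ))
    (hFK : ∀ x ∈ F, x ∈ K)
    (hsep : ∀ x ∈ F, ∀ x' ∈ F, x ≠ x' → ∃ z ∈ polar L, (1 : ℝ) < ∑ i, |z i| * |x i - x' i|) :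
    Real.log F.card ≤ 500 * Real.log c.card := by
  classical
  by_contra hcontra
  push Not at hcontra
  set q := Real.log (c.card : ℝ) with hq
  set p := Real.log (F.card : ℝ) with hp
  have hN2 : (2 : ℝ) ≤ c.card := by exact_mod_cast hN
  have hqlog2 : Real.log 2 ≤ q := Real.log_le_log (by norm_num) hN2
  have hlog2 : (0.69 : ℝ) < Real.log 2 := by
    have := Real.log_two_gt_d9; linarith
  have hlog2' : Real.log 2 < (0.7 : ℝ) := by
    have := Real.log_two_lt_d9; linarith
  have hq0 : 0 < q := by linarith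
  have hp0 : 0 < p := by linarith
  have hFne : F.Nonempty := by
    by_contra h
    rw [Finset.not_nonempty_iff_eq_empty] at h
    rw [hp, h] at hp0
    simp at hp0
  haveI : Nonempty F := hFne.to_subtype
  have hcne : c.Nonempty := by
    rw [← Finset.card_pos]; omega
  have hlogY : Real.log (Fintype.card F) = p := by rw [Fintype.card_coe]
  -- core lemma
  have hcore : ∀ x : F, ∃ T : Finset (Fin n), (T.card : ℝ) ≤ 28 * q ∧
      ∀ z ∈ polar L, ∑ i ∈ Tᶜ, |z i| * |x.1 i| ≤ 10 * (1 / 128) :=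
    fun x => core_lemma hK hL (by norm_num) hc hN (hFK x.1 x.2)
  choose T hT1 hT2 using hcore
  -- gibbs minimisers
  set u : F → F → Fin n → ℝ := fun x y => uu x.1 (T x) (T y) with hu
  have hg := fun x : F => gibbs_min (Y := F) (polarPos_compact hL) polarPos_convex
    polarPos_nonempty (u x) (8 * p) (by positivity)
  choose z hzP hzfo using hg
  set a : F → F → ℝ := fun x y => ∑ i, z x i * u x y i with ha
  have ha0 : ∀ x y, 0 ≤ a x y := fun x y =>
    Finset.sum_nonneg (fun i _ => mul_nonneg ((hzP x).2 i) (uu_nonneg _ _ _ i))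
  set e : F → F → ℝ := fun x y => Real.exp (-(8 * p) * a x y) with he
  have he0 : ∀ x y, 0 < e x y := fun x y => Real.exp_pos _
  -- the dichotomy
  set A := Finset.univ.filter (fun x : F => ∑ y, e x y ≤ Real.exp (3 * p / 4)) with hA
  set B := Finset.univ.filter (fun x : F => ¬ ∑ y, e x y ≤ Real.exp (3 * p / 4)) with hB
  have hAB : A.card + B.card = Fintype.card F := by
    rw [hA, hB, Finset.card_filter_add_card_filter_not]
    simp
  have hABr : (A.card : ℝ) + B.card = Fintype.card F := by exact_mod_cast hAB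
  by_cases hcase : (Fintype.card F : ℝ) ≤ 2 * A.card
  · -- Case 1
    have hcellex : ∀ x : F, ∃ c₀ ∈ c, ∀ w ∈ K, ∑ i, w i * (rst (T x) (z x) i - c₀ i) ≤ 1 / 128 :=
      fun x => hc _ (rst_mem_polar hL (hzP x).1 (T x))
    choose cell hcell1 hcell2 using hcellex
    have hres := case1_abstract c hcne e (fun x y => he0 x y) A cell
      (fun x _ => hcell1 x) hp0
      (fun x hx => (Finset.mem_filter.mp hx).2) (by
        intro x _ y _ hxy
        have hpair : ∑ i, rst (T x) (z x) i * uu x.1 (T x) (T y) i ≤ 2 * (1 / 128) := by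
          apply cell_pair hK (hcell2 x) (by rw [hxy]; exact hcell2 y) (hFK x.1 x.2)
          intro i hi
          simp [rst, hi]
        rw [pair_rst] at hpair
        have hax : a x y ≤ 1 / 64 := by
          have : a x y = ∑ i, z x i * uu x.1 (T x) (T y) i := rfl
          rw [this]; linarith
        apply Real.exp_le_exp.mpr
        have := mul_le_mul_of_nonneg_left hax (by positivity : (0 : ℝ) ≤ 8 * p)
        nlinarith) hcase hlogY
    linarith
  · -- Case 2
    have hcase2 : (Fintype.card F : ℝ) ≤ 2 * B.card := by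
      push Not at hcase
      linarith
    have hBpos : (0 : ℝ) < B.card := by
      have : (0 : ℝ) < Fintype.card F := by exact_mod_cast Fintype.card_pos
      linarith
    have hBne : B.Nonempty := by
      rw [← Finset.card_pos]; exact_mod_cast hBpos
    haveI : Nonempty B := hBne.to_subtype
    -- the measures
    set Z : F → ℝ := fun x => ∑ y, e x y with hZ
    set ν : F → F → ℝ := fun x y => e x y / Z x with hν
    have hgc : ∀ x ∈ B, (∀ y, 0 < ν x y) ∧ ∑ y, ν x y = 1 ∧
        3 * p / 4 ≤ ∑ y, -(ν x y * Real.log (ν x y)) ∧ ∑ y, ν x y * a x y ≤ 1 / 32 := by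
      intro x hx
      have hZx : Real.exp (3 * p / 4) < ∑ y, Real.exp (-(8 * p) * a x y) :=
        not_le.mp (Finset.mem_filter.mp hx).2
      exact gibbs_calc (a x) (ha0 x) hp0 hlogY hZx
    have hZpos : ∀ x, 0 < Z x := fun x => Finset.sum_pos (fun y _ => he0 x y) Finset.univ_nonempty
    -- first order
    have hfo : ∀ x ∈ B, ∀ z' ∈ polarPos L, ∑ y, ν x y * ∑ i, z' i * u x y i ≤ 1 / 32 := by
      intro x hx z' hz'
      have h1 := hzfo x z' hz'
      have h2 := (hgc x hx).2.2.2
      refine le_trans ?_ h2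
      have h3 : ∀ (w : Fin n → ℝ), ∑ y, ν x y * ∑ i, w i * u x y i =
          (∑ y, e x y * ∑ i, w i * u x y i) / Z x := by
        intro w
        rw [Finset.sum_div]
        refine Finset.sum_congr rfl (fun y _ => ?_)
        simp only [hν]
        ring
      have h4 : ∑ y, ν x y * a x y = ∑ y, ν x y * ∑ i, z x i * u x y i := rfl
      rw [h4, h3, h3]
      exact div_le_div_of_nonneg_right h1 (hZpos x).le
    -- coverage weights
    set w : F → Fin n → ℝ := fun x k => ∑ y, (if k ∈ T y then 0 else ν x y) with hw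
    set CC : F → Finset (Fin n) := fun x => (T x).filter (fun k => w x k ≤ 1 / 4) with hCC
    have hCCT : ∀ x, CC x ⊆ T x := fun x => Finset.filter_subset _ _
    have hcardCC : ∀ x, ((CC x).card : ℝ) ≤ 28 * q := fun x =>
      le_trans (by exact_mod_cast Finset.card_le_card (hCCT x)) (hT1 x)
    -- the mean identity
    have hmean : ∀ x ∈ B, ∀ z' ∈ polarPos L, ∑ k ∈ T x \ CC x, |z' k| * |x.1 k| ≤ 1 / 8 := by
      intro x hx z' hz'
      have hν0 : ∀ y, 0 < ν x y := (hgc x hx).1
      have h1 := hfo x hx z' hz'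
      have h2 : ∑ y, ν x y * ∑ i, z' i * u x y i = ∑ i, z' i * ∑ y, ν x y * u x y i := by
        simp only [Finset.mul_sum]
        rw [Finset.sum_comm]
        refine Finset.sum_congr rfl (fun i _ => Finset.sum_congr rfl (fun y _ => by ring))
      rw [h2] at h1
      have h3 : ∀ i, i ∈ T x → ∑ y, ν x y * u x y i = |x.1 i| * w x i := by
        intro i hi
        simp only [hw, Finset.mul_sum]
        refine Finset.sum_congr rfl (fun y _ => ?_)
        simp only [hu, uu]
        by_cases hy : i ∈ T y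
        · simp [hy]
        · simp [hy, hi]; ring
      have h4 : ∀ i, 0 ≤ z' i * ∑ y, ν x y * u x y i := fun i =>
        mul_nonneg (hz'.2 i) (Finset.sum_nonneg (fun y _ =>
          mul_nonneg (hν0 y).le (uu_nonneg _ _ _ i)))
      have h5 : ∑ k ∈ T x \ CC x, z' k * ∑ y, ν x y * u x y k ≤
          ∑ i, z' i * ∑ y, ν x y * u x y i :=
        Finset.sum_le_sum_of_subset_of_nonneg (Finset.subset_univ _) (fun i _ _ => h4 i)
      have h6 : ∑ k ∈ T x \ CC x, |z' k| * |x.1 k| ≤
          4 * ∑ k ∈ T x \ CC x, z' k * ∑ y, ν x y * u x y k := by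
        rw [Finset.mul_sum]
        refine Finset.sum_le_sum (fun k hk => ?_)
        have hkT := (Finset.mem_sdiff.mp hk).1
        have hkC := (Finset.mem_sdiff.mp hk).2
        rw [h3 k hkT, abs_of_nonneg (hz'.2 k)]
        have hwk : 1 / 4 < w x k := by
          by_contra hcon
          exact hkC (Finset.mem_filter.mpr ⟨hkT, not_lt.mp hcon⟩)
        have h7 : 0 ≤ z' k * |x.1 k| := mul_nonneg (hz'.2 k) (abs_nonneg _)
        nlinarith
      linarith
    -- separation on a common C
    have hfibsep : ∀ x₁ ∈ B, ∀ x₂ ∈ B, x₁ ≠ x₂ → CC x₁ = CC x₂ →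
        ∃ z' ∈ polar L, (1 / 2 : ℝ) < ∑ i ∈ CC x₁, |z' i| * |x₁.1 i - x₂.1 i| := by
      intro x₁ h₁ x₂ h₂ hne hCeq
      have hne' : x₁.1 ≠ x₂.1 := fun h => hne (Subtype.ext h)
      obtain ⟨z', hz', hz1⟩ := hsep x₁.1 x₁.2 x₂.1 x₂.2 hne'
      refine ⟨z', hz', ?_⟩
      have hpos := abs_mem_polarPos hL hz'
      have hm1 := hmean x₁ h₁ _ hpos
      have hm2 := hmean x₂ h₂ _ hpos
      simp only [abs_abs] at hm1 hm2
      have ho1 := offC (hCCT x₁) (hT2 x₁ z' hz') hm1
      have ho2 := offC (hCCT x₂) (hT2 x₂ z' hz') hm2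
      rw [← hCeq] at ho2
      have := sep_on_C hz1 ho1 ho2
      norm_num at this ⊢
      linarith
    -- fibres
    set M : ℝ := (500 : ℝ) ^ (28 * q) * c.card with hM
    have hcposR : (0 : ℝ) < c.card := by linarith
    have hMpos : 0 < M := mul_pos (Real.rpow_pos_of_pos (by norm_num) _) hcposR
    set cc : B → Fin n → Bool := fun x k => decide (k ∈ CC x.1) with hcc
    set s : F → Fin n → Bool := fun y k => decide (k ∈ T y) with hs
    have hfib : ∀ c₀, ((Finset.univ.filter (fun x : B => cc x = c₀)).card : ℝ) ≤ M := by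
      intro c₀
      by_cases hne : (Finset.univ.filter (fun x : B => cc x = c₀)).Nonempty
      · obtain ⟨x₀, hx₀⟩ := hne
        have hx₀c : cc x₀ = c₀ := (Finset.mem_filter.mp hx₀).2
        have hCeq : ∀ x ∈ Finset.univ.filter (fun x : B => cc x = c₀), CC x.1 = CC x₀.1 := by
          intro x hx
          have hxc : cc x = c₀ := (Finset.mem_filter.mp hx).2
          ext k
          have := congrFun (hxc.trans hx₀c.symm) k
          simpa [hcc] using this
        have hb := fibre_bound hK hL (t := 1 / 128) (by norm_num) (by norm_num) hc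
          (fun x : B => x.1.1) (Finset.univ.filter (fun x : B => cc x = c₀)) (CC x₀.1)
          (fun x _ => hFK x.1.1 x.1.2) (by
            intro x hx x' hx' hne'
            have hne'' : x.1 ≠ x'.1 := fun h => hne' (Subtype.ext h)
            have h1 := hfibsep x.1 x.2 x'.1 x'.2 hne''
              ((hCeq x hx).trans (hCeq x' hx').symm)
            rw [hCeq x hx] at h1
            exact h1)
        refine le_trans hb ?_
        apply mul_le_mul_of_nonneg_right _ hcposR.le
        rw [← Real.rpow_natCast]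
        exact Real.rpow_le_rpow_of_exponent_le (by norm_num) (hcardCC x₀.1)
      · rw [Finset.not_nonempty_iff_eq_empty] at hne
        rw [hne]
        simpa using hMpos.le
    -- the coding inequality
    have hkl := kl_bound (X := B) (Y := F) (fun x y => ν x.1 y)
      (fun x y => (hgc x.1 x.2).1 y) (fun x => (hgc x.1 x.2).2.1)
      cc s (3 * p / 4) (1 / 4) (28 * q) M
      (fun x => (hgc x.1 x.2).2.2.1) (by norm_num)
      (by
        intro x k hk
        have hk' : k ∈ CC x.1 := by simpa [hcc] using hk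
        have h1 := (Finset.mem_filter.mp hk').2
        have h2 : ∑ y, (if s y k = true then 0 else ν x.1 y) = w x.1 k := by
          simp only [hw, hs, decide_eq_true_eq]
        rw [h2]
        exact h1)
      (by
        intro x
        have : Finset.univ.filter (fun k => cc x k = true) = CC x.1 := by
          ext k; simp [hcc]
        rw [this]
        exact hcardCC x.1)
      (by
        intro y
        have : Finset.univ.filter (fun k => s y k = true) = T y := by
          ext k; simp [hs]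
        rw [this]
        exact hT1 y)
      hfib
    -- numerics
    have hcardB : Real.log (Fintype.card B) = Real.log (B.card : ℝ) := by
      rw [Fintype.card_coe]
    have hlogB : p - Real.log 2 ≤ Real.log (Fintype.card B) := by
      rw [hcardB, ← hlogY]
      have hYpos : (0 : ℝ) < Fintype.card F := by exact_mod_cast Fintype.card_pos
      have h1 : Real.log (Fintype.card F) ≤ Real.log (2 * (B.card : ℝ)) :=
        Real.log_le_log hYpos hcase2
      rw [Real.log_mul (by norm_num) hBpos.ne'] at h1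
      linarith
    have hlogM : Real.log M = 28 * q * Real.log 500 + q := by
      rw [hM, Real.log_mul (Real.rpow_pos_of_pos (by norm_num) _).ne' hcposR.ne',
        Real.log_rpow (by norm_num)]
    have hlog500 : Real.log 500 ≤ 6.3 := by
      have h1 : Real.log 500 ≤ Real.log (2 ^ 9) := Real.log_le_log (by norm_num) (by norm_num)
      rw [Real.log_pow] at h1
      push_cast at h1
      linarith
    rw [hlogM, hlogY] at hkl
    have h1 : 28 * q * Real.log 500 ≤ 28 * q * 6.3 :=
      mul_le_mul_of_nonneg_left hlog500 (by positivity)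
    have h2 : 28 * q * Real.log 2 ≤ 28 * q * 0.7 :=
      mul_le_mul_of_nonneg_left hlog2'.le (by positivity)
    linarith

end Vale.Agent.Lib.P126U
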